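import Vale.Agent.P088.R2.H551.V.Spec
import Vale.Agent.P088.H91.UInv

/-!
# P088, row (BI): the block matrix `(∂_l Y_a)` has a smooth inverse near `1`
-/

open MeasureTheory Set
open scoped ContDiff Matrix

noncomputable section

namespace Vale.Agent.P088.PJ

open Vale.Agent.P088.LR Vale.Agent.P088.LR.U Vale.Agent.P088.LR.H158

namespace H870

variable {n N k : ℕ}

theorem cl_pd {F : Type*} [NormedAddCommGroup F] [NormedSpace ℝ F] {k : ℕ} {δ : ℝ} {f : V n → F}
    (hf : ContDiff ℝ ∞ f) (h : Cl (k + 1) δ f) (i : Fin n) : Cl k δ (pd i f) := by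
  intro l hl x
  let L : (V n →L[ℝ] F) →L[ℝ] F := ContinuousLinearMap.apply ℝ F (Pi.single i (1 : ℝ))
  have hL : ‖L‖ ≤ 1 := by
    refine ContinuousLinearMap.opNorm_le_bound _ zero_le_one fun T => ?_
    have h1 : L T = T (Pi.single i 1) := rfl
    rw [h1, one_mul]
    refine (T.le_opNorm _).trans ?_
    rw [Pi.norm_single, norm_one, mul_one]
  have h2 : pd i f = L ∘ fderiv ℝ f := rfl
  rw [h2]
  have hfd : ContDiff ℝ ∞ (fderiv ℝ f) := hf.fderiv_right (by simp)
  refine (ContinuousLinearMap.norm_iteratedFDeriv_comp_left L hfd.contDiffAt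
    (by exact_mod_cast le_top)).trans ?_
  rw [norm_iteratedFDeriv_fderiv]
  calc ‖L‖ * ‖iteratedFDeriv ℝ (l + 1) f x‖ ≤ 1 * ‖iteratedFDeriv ℝ (l + 1) f x‖ :=
        mul_le_mul_of_nonneg_right hL (norm_nonneg _)
    _ ≤ δ := by rw [one_mul]; exact h (l + 1) (by omega) x

theorem cd_pd {F : Type*} [NormedAddCommGroup F] [NormedSpace ℝ F] {f : V n → F}
    (hf : ContDiff ℝ ∞ f) (i : Fin n) : ContDiff ℝ ∞ (pd i f) := by
  let L : (V n →L[ℝ] F) →L[ℝ] F := ContinuousLinearMap.apply ℝ F (Pi.single i (1 : ℝ))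
  have h2 : pd i f = L ∘ fderiv ℝ f := rfl
  rw [h2]
  exact L.contDiff.comp (hf.fderiv_right (by simp))

/-- The block matrix: row `(l, α)`, column `(a, β)`. -/
def blk (Y : Fin n → MC n N) : MC n (n * N) := fun x => Matrix.of fun p q =>
  pdm (finProdFinEquiv.symm p).1 (Y (finProdFinEquiv.symm q).1) x
    (finProdFinEquiv.symm p).2 (finProdFinEquiv.symm q).2

theorem blk_apply (Y : Fin n → MC n N) (x : V n) (l a : Fin n) (α β : Fin N) :
    blk Y x (finProdFinEquiv (l, α)) (finProdFinEquiv (a, β)) = pdm l (Y a) x α β := by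
  unfold blk
  rw [Matrix.of_apply, Equiv.symm_apply_apply, Equiv.symm_apply_apply]

/-- The blocks of a matrix function of size `n * N`. -/
def ubk (G : MC n (n * N)) (a b : Fin n) : MC n N := fun x => Matrix.of fun α β =>
  G x (finProdFinEquiv (a, α)) (finProdFinEquiv (b, β))

theorem sum_prod (f : Fin (n * N) → ℂ) :
    ∑ p, f p = ∑ a : Fin n, ∑ α : Fin N, f (finProdFinEquiv (a, α)) := by
  rw [← Fintype.sum_prod_type (f := fun p : Fin n × Fin N => f (finProdFinEquiv p))]
  exact (Equiv.sum_comp finProdFinEquiv f).symm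

theorem one_blk (a b : Fin n) (α β : Fin N) :
    (1 : Matrix (Fin (n * N)) (Fin (n * N)) ℂ) (finProdFinEquiv (a, α)) (finProdFinEquiv (b, β)) =
      (if a = b then (1 : Matrix (Fin N) (Fin N) ℂ) else 0) α β := by
  rw [Matrix.one_apply]
  by_cases hab : a = b
  · subst hab
    simp [Matrix.one_apply]
  · have : ¬ ((finProdFinEquiv (a, α) : Fin (n * N)) = finProdFinEquiv (b, β)) := by
      intro h
      exact hab (congrArg Prod.fst (finProdFinEquiv.injective h))
    simp [hab, this]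

theorem hd_coord (a : Fin n) (x : V n) :
    HasFDerivAt (fun y : V n => (y a : ℂ)) (Complex.ofRealCLM.comp
        (ContinuousLinearMap.proj (R := ℝ) (φ := fun _ : Fin n => ℝ) a)) x :=
  (Complex.ofRealCLM.comp
    (ContinuousLinearMap.proj (R := ℝ) (φ := fun _ : Fin n => ℝ) a)).hasFDerivAt

theorem pd_coord (l a : Fin n) (x : V n) (c : ℂ) :
    pd l (fun y : V n => (y a : ℂ) * c) x = if l = a then c else 0 := by
  unfold pd
  rw [((hd_coord a x).mul_const c).fderiv]
  by_cases h : l = a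
  · subst h
    simp
  · simp [h, Ne.symm h]

theorem cd_coord (a : Fin n) (c : ℂ) : ContDiff ℝ ∞ (fun y : V n => (y a : ℂ) * c) := by
  have h : ContDiff ℝ ∞ (fun y : V n => (y a : ℂ)) :=
    (Complex.ofRealCLM.comp
      (ContinuousLinearMap.proj (R := ℝ) (φ := fun _ : Fin n => ℝ) a)).contDiff
  exact h.mul contDiff_const

/-- The entries of `blk Y - 1`. -/
theorem blk_sub {Y : Fin n → MC n N} (hY : ∀ a, SmC (Y a)) (l a : Fin n) (α β : Fin N) (x : V n) :
    (blk Y x - 1) (finProdFinEquiv (l, α)) (finProdFinEquiv (a, β)) =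
      pd l (fun y => (Y a y - (y a : ℂ) • (1 : Matrix (Fin N) (Fin N) ℂ)) α β) x := by
  rw [Matrix.sub_apply, blk_apply, one_blk]
  have e : (fun y => (Y a y - (y a : ℂ) • (1 : Matrix (Fin N) (Fin N) ℂ)) α β) =
      fun y => Y a y α β - (y a : ℂ) * (1 : Matrix (Fin N) (Fin N) ℂ) α β := by
    funext y
    simp [Matrix.sub_apply, Matrix.smul_apply]
  have h1 : pd l (fun y => Y a y α β - (y a : ℂ) * (1 : Matrix (Fin N) (Fin N) ℂ) α β) x =
      pd l (fun y => Y a y α β) x -
        pd l (fun y : V n => (y a : ℂ) * (1 : Matrix (Fin N) (Fin N) ℂ) α β) x := by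
    unfold pd
    rw [fderiv_fun_sub ((hY a α β).differentiable (by simp) x)
      ((cd_coord a _).differentiable (by simp) x)]
    rfl
  rw [e, h1, pd_coord]
  by_cases h : l = a
  · simp [h, pdm]
  · simp [h, pdm]

theorem blk_sm {Y : Fin n → MC n N} (hY : ∀ a, SmC (Y a)) : SmC (blk Y) := by
  intro p q
  have e : (fun x => blk Y x p q) = pd (finProdFinEquiv.symm p).1
      (fun y => Y (finProdFinEquiv.symm q).1 y (finProdFinEquiv.symm p).2
        (finProdFinEquiv.symm q).2) := rfl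
  rw [e]
  exact cd_pd (hY _ _ _) _

theorem blk_cl {Y : Fin n → MC n N} (hY : ∀ a, SmC (Y a)) {δ : ℝ}
    (h : ∀ a, ClC (k + 1) δ (fun x => Y a x - (x a : ℂ) • 1)) :
    ClC k δ (fun x => blk Y x - 1) := by
  intro p q
  obtain ⟨⟨l, α⟩, rfl⟩ := finProdFinEquiv.surjective p
  obtain ⟨⟨a, β⟩, rfl⟩ := finProdFinEquiv.surjective q
  have e : (fun x => (blk Y x - 1) (finProdFinEquiv (l, α)) (finProdFinEquiv (a, β))) =
      pd l (fun y => (Y a y - (y a : ℂ) • (1 : Matrix (Fin N) (Fin N) ℂ)) α β) :=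
    funext fun x => blk_sub hY l a α β x
  rw [e]
  refine cl_pd ?_ (h a α β) l
  have e2 : (fun y => (Y a y - (y a : ℂ) • (1 : Matrix (Fin N) (Fin N) ℂ)) α β) =
      fun y => Y a y α β - (y a : ℂ) * (1 : Matrix (Fin N) (Fin N) ℂ) α β := by
    funext y
    simp [Matrix.sub_apply, Matrix.smul_apply]
  rw [e2]
  exact (hY a α β).sub (cd_coord a _)

end H870

open H870

theorem rowBI : RowBI := by
  intro n N k
  obtain ⟨C, ε₀, hC, hε, hI⟩ := LR.U.H91.inv n (n * N) k
  refine ⟨C, ε₀, hC, hε, ?_⟩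
  intro Y hY δ hδ0 hδ hcl
  obtain ⟨hu, hs, hc⟩ := hI (blk Y) (blk_sm hY) δ hδ0 hδ (blk_cl hY hcl)
  refine ⟨ubk fun x => (blk Y x)⁻¹, ?_, ?_, ?_, ?_⟩
  · intro a b α β
    exact hs _ _
  · intro l b x
    have h := Matrix.mul_nonsing_inv (blk Y x) (hu x)
    ext α γ
    have h2 := congrFun (congrFun h (finProdFinEquiv (l, α))) (finProdFinEquiv (b, γ))
    rw [one_blk, Matrix.mul_apply, sum_prod] at h2
    rw [← h2, Matrix.sum_apply]
    refine Finset.sum_congr rfl fun a _ => ?_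
    rw [Matrix.mul_apply]
    refine Finset.sum_congr rfl fun β _ => ?_
    rw [blk_apply]
    rfl
  · intro a c x
    have h := Matrix.nonsing_inv_mul (blk Y x) (hu x)
    ext α γ
    have h2 := congrFun (congrFun h (finProdFinEquiv (a, α))) (finProdFinEquiv (c, γ))
    rw [one_blk, Matrix.mul_apply, sum_prod] at h2
    rw [← h2, Matrix.sum_apply]
    refine Finset.sum_congr rfl fun b _ => ?_
    rw [Matrix.mul_apply]
    refine Finset.sum_congr rfl fun β _ => ?_
    rw [blk_apply]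
    rfl
  · intro a b α β
    have h := hc (finProdFinEquiv (a, α)) (finProdFinEquiv (b, β))
    have e : (fun x => (ubk (fun x => (blk Y x)⁻¹) a b x - if a = b then 1 else 0) α β) =
        fun x => ((blk Y x)⁻¹ - 1) (finProdFinEquiv (a, α)) (finProdFinEquiv (b, β)) := by
      funext x
      rw [Matrix.sub_apply, Matrix.sub_apply, one_blk]
      rfl
    rw [e]
    exact h

end Vale.Agent.P088.PJ

end
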