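import Vale.Agent.P088.R2.H349.S4.SpecA
import Vale.Agent.P088.R2.H341.V.GE2
import Vale.Agent.P088.R2.H561.V.Fro
import Vale.Agent.P088.R2.H870.BI

/-!
# P088, stage 4, row X-GE: pointwise bounds
-/

open MeasureTheory Set
open scoped ContDiff Matrix

noncomputable section

namespace Vale.Agent.P088.S4.H870

open Vale.Agent.P088.LR Vale.Agent.P088.LR.U Vale.Agent.P088.LR.H158
open Vale.Agent.P088.HY (VV ipm tfp)
open Vale.Agent.P088.PJ
open Vale.Agent.P088.PJ.H561 (fn fn_nonneg fn_sq fn_mul fn_add fn_sub fn_neg fn_smul fn_zero fn_sum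
  fn_le entry_le)
open Vale.Agent.P088.PJ.H341 (hd sy SD tfC_add tf_Z re_tr_tf coef_near ipm_ge korn_err cl_mono
  cl_sup Uk sm_Uk sm_pdm sm_sm sm_add sm_sub sm_sum cont_nq)

variable {n N : ℕ}

/-! ## Calculus -/

theorem pdm_add {P Q : MC n N} (hP : SmC P) (hQ : SmC Q) (i : Fin n) (x : V n) :
    pdm i (fun x => P x + Q x) x = pdm i P x + pdm i Q x := by
  ext a b
  exact pd_add (dfa (hP a b) x) (dfa (hQ a b) x) i

theorem pdm_sub {P Q : MC n N} (hP : SmC P) (hQ : SmC Q) (i : Fin n) (x : V n) :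
    pdm i (fun x => P x - Q x) x = pdm i P x - pdm i Q x := by
  ext a b
  exact pd_sub (dfa (hP a b) x) (dfa (hQ a b) x) i

theorem pdm_sum {ι : Type*} (s : Finset ι) {P : ι → MC n N} (hP : ∀ i, SmC (P i)) (i : Fin n)
    (x : V n) : pdm i (fun x => ∑ j ∈ s, P j x) x = ∑ j ∈ s, pdm i (P j) x := by
  ext a b
  simp only [pdm, Matrix.of_apply, Matrix.sum_apply]
  exact pd_sum (fun j _ => dfa (hP j a b) x) i

theorem pd_ofReal {c : V n → ℝ} (hc : ContDiff ℝ ∞ c) (i : Fin n) (x : V n) :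
    pd i (fun y => (c y : ℂ)) x = ((pd i c x : ℝ) : ℂ) := by
  have hd := (Complex.ofRealCLM.hasFDerivAt (x := c x)).comp x (dfa hc x).hasFDerivAt
  unfold pd
  have e3 : (fun y => (c y : ℂ)) = Complex.ofRealCLM ∘ c := rfl
  rw [e3, hd.fderiv]
  rfl

theorem pdm_smulR {c : V n → ℝ} {P : MC n N} (hc : ContDiff ℝ ∞ c) (hP : SmC P) (i : Fin n)
    (x : V n) : pdm i (fun x => (c x : ℂ) • P x) x =
      ((pd i c x : ℝ) : ℂ) • P x + (c x : ℂ) • pdm i P x := by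
  ext a b
  have h := pd_mul (f := fun y => (c y : ℂ)) (g := fun y => P y a b) (x := x)
    (dfa (Complex.ofRealCLM.contDiff.comp hc) x) (dfa (hP a b) x) i
  rw [pd_ofReal hc] at h
  exact h

theorem fn_smulR (c : ℝ) (A : Matrix (Fin N) (Fin N) ℂ) : fn ((c : ℂ) • A) = |c| * fn A := by
  rw [fn_smul, Complex.norm_real, Real.norm_eq_abs]

theorem fn_one_le : fn (1 : Matrix (Fin N) (Fin N) ℂ) ≤ N := by
  have := fn_le (A := (1 : Matrix (Fin N) (Fin N) ℂ)) zero_le_one fun a b =>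
    PJ.H341.one_entry a b
  rwa [mul_one] at this

theorem fn_le_sum {ι : Type*} [Fintype ι] (A : ι → Matrix (Fin N) (Fin N) ℂ) (i : ι) :
    fn (A i) ≤ ∑ j, fn (A j) :=
  Finset.single_le_sum (f := fun j => fn (A j)) (fun _ _ => fn_nonneg _) (Finset.mem_univ i)

theorem one_abs {ι : Type*} [DecidableEq ι] (i j : ι) : |(1 : Matrix ι ι ℝ) i j| ≤ 1 := by
  by_cases hij : i = j
  · subst hij
    simp
  · rw [Matrix.one_apply_ne hij]
    simp

/-! ## Consequences of the smallness -/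

theorem pd_sub_c {f : V n → ℝ} (c : ℝ) (i : Fin n) : pd i (fun x => f x - c) = pd i f := by
  funext x
  unfold pd
  rw [fderiv_sub_const]

theorem s_near {k : ℕ} {δ : ℝ} {s : MF n}
    (h : ∀ i j, Cl k δ (fun x => s x i j - (1 : Matrix (Fin n) (Fin n) ℝ) i j)) (x : V n)
    (i j : Fin n) : |s x i j - (1 : Matrix (Fin n) (Fin n) ℝ) i j| ≤ δ := by
  have := cl_sup (h i j) x
  rwa [Real.norm_eq_abs] at this

theorem s_two {δ : ℝ} (hδ : δ ≤ 1) {s : MF n} {x : V n}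
    (h : ∀ i j, |s x i j - (1 : Matrix (Fin n) (Fin n) ℝ) i j| ≤ δ) (i j : Fin n) :
    |s x i j| ≤ 2 := by
  calc |s x i j| = |(s x i j - (1 : Matrix (Fin n) (Fin n) ℝ) i j) +
        (1 : Matrix (Fin n) (Fin n) ℝ) i j| := by rw [sub_add_cancel]
    _ ≤ δ + 1 := (abs_add_le _ _).trans (add_le_add (h i j) (one_abs i j))
    _ ≤ 2 := by linarith

theorem s_der {k : ℕ} (hk : 1 ≤ k) {δ : ℝ} {s : MF n} (hs : SmM s)
    (h : ∀ i j, Cl k δ (fun x => s x i j - (1 : Matrix (Fin n) (Fin n) ℝ) i j)) (x : V n)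
    (l i j : Fin n) : |pd l (fun y => s y i j) x| ≤ δ := by
  have h1 : Cl 0 δ (pd l (fun x => s x i j - (1 : Matrix (Fin n) (Fin n) ℝ) i j)) :=
    PJ.H870.cl_pd ((hs i j).sub contDiff_const) (cl_mono (h i j) (by omega) le_rfl) l
  rw [pd_sub_c] at h1
  have := cl_sup h1 x
  rwa [Real.norm_eq_abs] at this

theorem fn_near {k : ℕ} {δ : ℝ} (hδ : 0 ≤ δ) {F : MC n N} (h : ClC k δ F) (x : V n) :
    fn (F x) ≤ N * δ := fn_le hδ fun a b => cl_sup (h a b) x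

theorem fn_near_pd {k : ℕ} (hk : 1 ≤ k) {δ : ℝ} (hδ : 0 ≤ δ) {F : MC n N} (hF : SmC F)
    (h : ClC k δ F) (i : Fin n) (x : V n) : fn (pdm i F x) ≤ N * δ :=
  fn_le hδ fun a b => cl_sup (PJ.H870.cl_pd (hF a b) (cl_mono (h a b) (by omega) le_rfl) i) x

theorem pdm_subC {P : MC n N} (C : Matrix (Fin N) (Fin N) ℂ) (i : Fin n) :
    pdm i (fun x => P x - C) = pdm i P := by
  funext x
  ext a b
  simp only [pdm, Matrix.of_apply, Matrix.sub_apply]
  unfold pd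
  rw [fderiv_sub_const]

theorem fn_two {δ : ℝ} (hδ : δ ≤ 1) {A B : Matrix (Fin N) (Fin N) ℂ}
    (hB : fn B ≤ N) (h : fn (A - B) ≤ N * δ) : fn A ≤ 2 * N := by
  have hN : (0 : ℝ) ≤ N := Nat.cast_nonneg N
  calc fn A = fn ((A - B) + B) := by rw [sub_add_cancel]
    _ ≤ N * δ + N := (fn_add _ _).trans (add_le_add h hB)
    _ ≤ 2 * N := by nlinarith

/-- The inverse of a matrix function near `1`. -/
theorem inv_bd (n N : ℕ) : ∃ ε₀ : ℝ, 0 < ε₀ ∧ ∀ F : MC n N, SmC F → ∀ δ, 0 ≤ δ → δ ≤ ε₀ →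
    ClC 0 δ (fun x => F x - 1) → SmC (fun x => (F x)⁻¹) ∧ ∀ x, fn ((F x)⁻¹) ≤ 2 * N := by
  obtain ⟨C, ε₀, hC, hε, hI⟩ := LR.U.H91.inv n N 0
  refine ⟨min ε₀ (1 / C), lt_min hε (by positivity), ?_⟩
  intro F hF δ hδ0 hδ hcl
  obtain ⟨-, h2, h3⟩ := hI F hF δ hδ0 (hδ.trans (min_le_left _ _)) hcl
  refine ⟨h2, fun x => ?_⟩
  have h4 : C * δ ≤ 1 := by
    have : δ ≤ 1 / C := hδ.trans (min_le_right _ _)
    rw [le_div_iff₀ hC] at this
    linarith
  exact fn_two h4 fn_one_le (fn_near (by positivity) h3 x)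

/-- The inverse of `s`. -/
theorem tau_two {δ : ℝ} (hδ : 0 ≤ δ) (hδn : 2 * n * δ ≤ 1) {s τ : Matrix (Fin n) (Fin n) ℝ}
    (h : ∀ i j, |s i j - (1 : Matrix (Fin n) (Fin n) ℝ) i j| ≤ δ) (hτ : s * τ = 1) (i j : Fin n) :
    |τ i j| ≤ 2 := by
  obtain ⟨p, -, hp⟩ := Finset.exists_max_image (Finset.univ : Finset (Fin n × Fin n))
    (fun p => |τ p.1 p.2|) ⟨(i, j), Finset.mem_univ _⟩
  set M := |τ p.1 p.2| with hM
  have hM0 : 0 ≤ M := abs_nonneg _
  have h1 : τ p.1 p.2 = (1 : Matrix (Fin n) (Fin n) ℝ) p.1 p.2 -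
      ∑ k, (s p.1 k - (1 : Matrix (Fin n) (Fin n) ℝ) p.1 k) * τ k p.2 := by
    have h2 := congrFun (congrFun hτ p.1) p.2
    rw [Matrix.mul_apply] at h2
    have h3 : ∑ k, (s p.1 k - (1 : Matrix (Fin n) (Fin n) ℝ) p.1 k) * τ k p.2 =
        ∑ k, s p.1 k * τ k p.2 - ((1 : Matrix (Fin n) (Fin n) ℝ) * τ) p.1 p.2 := by
      rw [Matrix.mul_apply, ← Finset.sum_sub_distrib]
      exact Finset.sum_congr rfl fun k _ => by ring
    rw [h3, h2, one_mul]
    ring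
  have h2 : M ≤ 1 + n * (δ * M) := by
    have h1' : M = |(1 : Matrix (Fin n) (Fin n) ℝ) p.1 p.2 -
        ∑ k, (s p.1 k - (1 : Matrix (Fin n) (Fin n) ℝ) p.1 k) * τ k p.2| := congrArg abs h1
    refine (le_of_eq h1').trans ?_
    refine (abs_sub _ _).trans (add_le_add (one_abs _ _) ?_)
    refine (Finset.abs_sum_le_sum_abs _ _).trans ?_
    calc ∑ k, |(s p.1 k - (1 : Matrix (Fin n) (Fin n) ℝ) p.1 k) * τ k p.2|
        ≤ ∑ _k : Fin n, δ * M := by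
          refine Finset.sum_le_sum fun k _ => ?_
          rw [abs_mul]
          exact mul_le_mul (h _ _) (hp (k, p.2) (Finset.mem_univ _)) (abs_nonneg _) hδ
      _ = n * (δ * M) := by simp
  have h3 : n * (δ * M) ≤ M / 2 := by nlinarith
  have h4 := hp (i, j) (Finset.mem_univ _)
  calc |τ i j| ≤ M := h4
    _ ≤ 2 := by linarith

theorem m_bd {s₂ τ : MF n} {x : V n} (h2 : ∀ i j, |s₂ x i j| ≤ 2) (hτ : ∀ i j, |τ x i j| ≤ 2)
    (b l : Fin n) : |mbl s₂ τ b l x| ≤ 4 * n := by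
  have h4 : ∀ i j i' j', |s₂ x i j * τ x i' j'| ≤ 4 := by
    intro i j i' j'
    rw [abs_mul]
    calc _ ≤ (2 : ℝ) * 2 := mul_le_mul (h2 _ _) (hτ _ _) (abs_nonneg _) (by norm_num)
      _ = 4 := by norm_num
  have a1 : |∑ i, ∑ j, s₂ x i j * τ x i j| ≤ n ^ 2 * 4 := by
    refine (Finset.abs_sum_le_sum_abs _ _).trans ?_
    calc ∑ i, |∑ j, s₂ x i j * τ x i j| ≤ ∑ _i : Fin n, ∑ _j : Fin n, (4 : ℝ) := by
          refine Finset.sum_le_sum fun i _ => (Finset.abs_sum_le_sum_abs _ _).trans ?_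
          exact Finset.sum_le_sum fun j _ => h4 _ _ _ _
      _ = n ^ 2 * 4 := by simp; ring
  have a2 : |∑ i, s₂ x l i * τ x i b| ≤ n * 4 := by
    refine (Finset.abs_sum_le_sum_abs _ _).trans ?_
    calc ∑ i, |s₂ x l i * τ x i b| ≤ ∑ _i : Fin n, (4 : ℝ) :=
          Finset.sum_le_sum fun i _ => h4 _ _ _ _
      _ = n * 4 := by simp
  have hn : (0 : ℝ) ≤ n := Nat.cast_nonneg n
  unfold mbl
  rw [abs_div, abs_of_pos (by positivity : (0 : ℝ) < n + 2), div_le_iff₀ (by positivity)]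
  have a3 : |(∑ i, ∑ j, s₂ x i j * τ x i j) * (if b = l then (1 : ℝ) else 0)| ≤ n ^ 2 * 4 := by
    rw [abs_mul]
    have : |(if b = l then (1 : ℝ) else 0)| ≤ 1 := by
      split_ifs <;> simp
    calc _ ≤ (n : ℝ) ^ 2 * 4 * 1 := mul_le_mul a1 this (abs_nonneg _) (by positivity)
      _ = _ := mul_one _
  calc _ ≤ (n : ℝ) ^ 2 * 4 + 2 * (n * 4) := by
        refine (abs_add_le _ _).trans (add_le_add a3 ?_)
        rw [abs_mul, abs_two]
        linarith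
    _ = 4 * n * (n + 2) := by ring

end Vale.Agent.P088.S4.H870

end
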