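import Vale.Agent.P088.R2.H870.XA

/-!
# P088, stage 4, row X-GE: the main tensor, pointwise
-/

open MeasureTheory Set
open scoped ContDiff Matrix

noncomputable section

namespace Vale.Agent.P088.S4.H870

open Vale.Agent.P088.LR Vale.Agent.P088.LR.U Vale.Agent.P088.LR.H158
open Vale.Agent.P088.HY (VV ipm tfp)
open Vale.Agent.P088.PJ
open Vale.Agent.P088.PJ.H561 (fn fn_nonneg fn_sq fn_mul fn_add fn_sub fn_neg fn_smul fn_zero fn_sum
  fn_le entry_le)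
open Vale.Agent.P088.PJ.H341 (hd sy SD tfC_add tf_Z re_tr_tf coef_near ipm_ge korn_err cl_mono
  cl_sup Uk sm_Uk sm_pdm sm_sm sm_add sm_sub sm_sum cont_nq)

variable {n N : ℕ}

/-! ## The data at a point -/

/-- The pointwise bounds which are used. -/
structure Nb (δ : ℝ) (s₁ s₂ τ : MF n) (P₁ P₂ : MC n N) (G₂ β : Fin n → MC n N)
    (Γ : Fin n → Fin n → MC n N) (x : V n) : Prop where
  d0 : 0 ≤ δ
  d1 : δ ≤ 1
  a1 : ∀ i j, |s₁ x i j - (1 : Matrix (Fin n) (Fin n) ℝ) i j| ≤ δ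
  a2 : ∀ i j, |s₂ x i j - (1 : Matrix (Fin n) (Fin n) ℝ) i j| ≤ δ
  e1 : ∀ l i j, |pd l (fun y => s₁ y i j) x| ≤ δ
  e2 : ∀ l i j, |pd l (fun y => s₂ y i j) x| ≤ δ
  t : ∀ i j, |τ x i j| ≤ 2
  p1 : fn (P₁ x - 1) ≤ N * δ
  p2 : fn (P₂ x - 1) ≤ N * δ
  q1 : ∀ i, fn (pdm i P₁ x) ≤ N * δ
  q2 : ∀ i, fn (pdm i P₂ x) ≤ N * δ
  i2 : fn ((P₂ x)⁻¹) ≤ 2 * N
  g2 : ∀ i, fn (G₂ i x) ≤ N * δ
  be : ∀ i, fn (β i x) ≤ N * δ
  c0 : ∀ a b, fn (Γ a b x - if a = b then 1 else 0) ≤ N * δ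
  c1 : ∀ i a b, fn (pdm i (Γ a b) x) ≤ N * δ

section pt

variable {δ : ℝ} {s₁ s₂ τ : MF n} {P₁ P₂ : MC n N} {G₂ β D : Fin n → MC n N}
  {Γ : Fin n → Fin n → MC n N} {x : V n}

theorem Nb.P2 (h : Nb δ s₁ s₂ τ P₁ P₂ G₂ β Γ x) : fn (P₂ x) ≤ 2 * N := fn_two h.d1 fn_one_le h.p2

theorem Nb.P1 (h : Nb δ s₁ s₂ τ P₁ P₂ G₂ β Γ x) : fn (P₁ x) ≤ 2 * N := fn_two h.d1 fn_one_le h.p1

theorem Nb.Ga (h : Nb δ s₁ s₂ τ P₁ P₂ G₂ β Γ x) (a b : Fin n) : fn (Γ a b x) ≤ 2 * N := by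
  refine fn_two (B := if a = b then 1 else 0) h.d1 ?_ (h.c0 a b)
  split_ifs
  · exact fn_one_le
  · rw [fn_zero]; exact Nat.cast_nonneg N

/-- The first order coefficients. -/
theorem b_bd {s : MF n} {P : MC n N} {G : Fin n → MC n N} (hs : SmM s) (hP : SmC P)
    (d0 : 0 ≤ δ) (d1 : δ ≤ 1)
    (a : ∀ i j, |s x i j - (1 : Matrix (Fin n) (Fin n) ℝ) i j| ≤ δ)
    (e : ∀ l i j, |pd l (fun y => s y i j) x| ≤ δ) (p : fn (P x) ≤ 2 * N)
    (q : ∀ i, fn (pdm i P x) ≤ N * δ) (g : ∀ i, fn (G i x) ≤ N * δ) (j : Fin n) :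
    fn (∑ i, pdm i (TP s P i j) x) + fn (kp s G j x) ≤ 6 * n * N := by
  have hN : (0 : ℝ) ≤ N := Nat.cast_nonneg N
  have hn : (0 : ℝ) ≤ n := Nat.cast_nonneg n
  have h1 : fn (∑ i, pdm i (TP s P i j) x) ≤ n * (4 * N) := by
    refine (fn_sum _ _).trans ?_
    calc ∑ i, fn (pdm i (TP s P i j) x) ≤ ∑ _i : Fin n, (4 * N : ℝ) := by
          refine Finset.sum_le_sum fun i _ => ?_
          unfold TP
          rw [pdm_smulR (hs i j) hP]
          refine (fn_add _ _).trans ?_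
          rw [fn_smulR, fn_smulR]
          have h2 : |pd i (fun y => s y i j) x| * fn (P x) ≤ 1 * (2 * N) :=
            mul_le_mul ((e i i j).trans d1) p (fn_nonneg _) zero_le_one
          have h3 : |s x i j| * fn (pdm i P x) ≤ 2 * (N * 1) :=
            mul_le_mul (s_two d1 a i j) ((q i).trans (by gcongr)) (fn_nonneg _) (by norm_num)
          linarith
      _ = n * (4 * N) := by simp
  have h2 : fn (kp s G j x) ≤ n * (2 * N) := by
    unfold kp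
    refine (fn_sum _ _).trans ?_
    calc ∑ l, fn ((s x j l : ℂ) • G l x) ≤ ∑ _l : Fin n, (2 * N : ℝ) := by
          refine Finset.sum_le_sum fun l _ => ?_
          rw [fn_smulR]
          have h3 : |s x j l| * fn (G l x) ≤ 2 * (N * 1) :=
            mul_le_mul (s_two d1 a j l) ((g l).trans (by gcongr)) (fn_nonneg _) (by norm_num)
          linarith
      _ = n * (2 * N) := by simp
  calc _ ≤ (n : ℝ) * (4 * N) + n * (2 * N) := add_le_add h1 h2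
    _ = (6 : ℝ) * n * N := by ring

theorem Nb.bR (h : Nb δ s₁ s₂ τ P₁ P₂ G₂ β Γ x) (hs : SmM s₂) (hP : SmC P₂) (j : Fin n) :
    fn (bR s₂ P₂ G₂ j x) ≤ 12 * n * N ^ 2 := by
  have h1 := b_bd (G := G₂) hs hP h.d0 h.d1 h.a2 h.e2 h.P2 h.q2 h.g2 j
  unfold PJ.bR
  refine (fn_mul _ _).trans ?_
  calc _ ≤ (6 * n * N : ℝ) * (2 * N) :=
        mul_le_mul ((fn_sub _ _).trans h1) h.i2 (fn_nonneg _) (by positivity)
    _ = _ := by ring

/-! ## `Db` against `D` -/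

/-- The operator `X ↦ P ∑ X_a Γ_ab`. -/
theorem L_near (h : Nb δ s₁ s₂ τ P₁ P₂ G₂ β Γ x) (X : Fin n → Matrix (Fin N) (Fin N) ℂ)
    (b : Fin n) : fn (P₂ x * ∑ a, X a * Γ a b x - X b) ≤ 3 * N ^ 2 * δ * ∑ a, fn (X a) := by
  have hN : (0 : ℝ) ≤ N := Nat.cast_nonneg N
  rcases Nat.eq_zero_or_pos N with hN0 | hN1
  · subst hN0
    have e : P₂ x * ∑ a, X a * Γ a b x - X b = 0 := by
      ext i
      exact i.elim0
    rw [e, fn_zero]
    have := Finset.sum_nonneg fun a (_ : a ∈ Finset.univ) => fn_nonneg (X a)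
    have h0 := h.d0
    positivity
  have hN1' : (1 : ℝ) ≤ N := by exact_mod_cast hN1
  have e : P₂ x * ∑ a, X a * Γ a b x - X b =
      ∑ a, ((P₂ x - 1) * (X a * Γ a b x) + X a * (Γ a b x - if a = b then 1 else 0)) := by
    rw [Finset.sum_add_distrib]
    have e1 : ∑ a, (P₂ x - 1) * (X a * Γ a b x) = P₂ x * ∑ a, X a * Γ a b x -
        ∑ a, X a * Γ a b x := by
      rw [← Finset.mul_sum, sub_mul, one_mul]
    have e2 : ∑ a, X a * (Γ a b x - if a = b then 1 else 0) = ∑ a, X a * Γ a b x - X b := by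
      simp only [mul_sub, Finset.sum_sub_distrib, mul_ite, mul_one, mul_zero,
        Finset.sum_ite_eq', Finset.mem_univ, if_true]
    rw [e1, e2]
    abel
  rw [e, Finset.mul_sum]
  refine (fn_sum _ _).trans (Finset.sum_le_sum fun a _ => ?_)
  have hX := fn_nonneg (X a)
  have h0 := h.d0
  refine (fn_add _ _).trans ?_
  have h1 : fn ((P₂ x - 1) * (X a * Γ a b x)) ≤ N * δ * (fn (X a) * (2 * N)) := by
    refine (fn_mul _ _).trans (mul_le_mul h.p2 ?_ (fn_nonneg _) (by positivity))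
    exact (fn_mul _ _).trans (mul_le_mul_of_nonneg_left (h.Ga a b) hX)
  have h2 : fn (X a * (Γ a b x - if a = b then 1 else 0)) ≤ fn (X a) * (N * δ) :=
    (fn_mul _ _).trans (mul_le_mul_of_nonneg_left (h.c0 a b) hX)
  have h3 : fn (X a) * (N * δ) ≤ N ^ 2 * δ * fn (X a) := by
    have : (N : ℝ) * (δ * fn (X a)) ≤ N ^ 2 * (δ * fn (X a)) := by
      refine mul_le_mul_of_nonneg_right ?_ (by positivity)
      nlinarith
    linarith
  calc _ ≤ N * δ * (fn (X a) * (2 * N)) + N ^ 2 * δ * fn (X a) := by linarith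
    _ = _ := by ring

/-- `∑ |D_a|` and `∑ |∂_i D_a|`. -/
def dn (D : Fin n → MC n N) (x : V n) : ℝ := ∑ a, fn (D a x)

/-- `∑ |∂_i D_a|`. -/
def en (D : Fin n → MC n N) (x : V n) : ℝ := ∑ i, ∑ a, fn (pdm i (D a) x)

theorem dn_nonneg (D : Fin n → MC n N) (x : V n) : 0 ≤ dn D x :=
  Finset.sum_nonneg fun _ _ => fn_nonneg _

theorem en_nonneg (D : Fin n → MC n N) (x : V n) : 0 ≤ en D x :=
  Finset.sum_nonneg fun _ _ => Finset.sum_nonneg fun _ _ => fn_nonneg _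

theorem sm_Db {P : MC n N} (hP : SmC P) (hG : ∀ a b, SmC (Γ a b)) (hD : ∀ a, SmC (D a))
    (b : Fin n) : SmC (Db P Γ D b) := by
  unfold Db
  exact SmC_mul hP (sm_sum fun a _ => SmC_mul (hD a) (hG a b))

/-- `Db - D` -/
def Fb (P : MC n N) (Γ : Fin n → Fin n → MC n N) (D : Fin n → MC n N) (b : Fin n) : MC n N :=
  fun x => Db P Γ D b x - D b x

theorem sm_Fb {P : MC n N} (hP : SmC P) (hG : ∀ a b, SmC (Γ a b)) (hD : ∀ a, SmC (D a))
    (b : Fin n) : SmC (Fb P Γ D b) := sm_sub (sm_Db hP hG hD b) (hD b)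

theorem Fb_le (h : Nb δ s₁ s₂ τ P₁ P₂ G₂ β Γ x) (b : Fin n) :
    fn (Fb P₂ Γ D b x) ≤ 3 * N ^ 2 * δ * dn D x := by
  unfold Fb Db
  exact L_near h (fun a => D a x) b

theorem dFb_le (h : Nb δ s₁ s₂ τ P₁ P₂ G₂ β Γ x) (hP : SmC P₂) (hG : ∀ a b, SmC (Γ a b))
    (hD : ∀ a, SmC (D a)) (i b : Fin n) :
    fn (pdm i (Fb P₂ Γ D b) x) ≤ 3 * N ^ 2 * δ * ∑ a, fn (pdm i (D a) x)
      + 4 * N ^ 2 * δ * dn D x := by
  have hN : (0 : ℝ) ≤ N := Nat.cast_nonneg N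
  have h0 := h.d0
  have h1 := h.d1
  have e1 : pdm i (Fb P₂ Γ D b) x = (P₂ x * ∑ a, pdm i (D a) x * Γ a b x - pdm i (D b) x) +
      (pdm i P₂ x * ∑ a, D a x * Γ a b x + P₂ x * ∑ a, D a x * pdm i (Γ a b) x) := by
    unfold Fb
    rw [pdm_sub (sm_Db hP hG hD b) (hD b)]
    unfold Db
    rw [pdm_mul hP (sm_sum fun a _ => SmC_mul (hD a) (hG a b)),
      pdm_sum Finset.univ (fun a => SmC_mul (hD a) (hG a b))]
    simp only [pdm_mul (hD _) (hG _ b), Finset.sum_add_distrib, mul_add]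
    abel
  rw [e1]
  refine (fn_add _ _).trans (add_le_add (L_near h (fun a => pdm i (D a) x) b) ?_)
  refine (fn_add _ _).trans ?_
  have h2 : fn (pdm i P₂ x * ∑ a, D a x * Γ a b x) ≤ N * δ * (dn D x * (2 * N)) := by
    refine (fn_mul _ _).trans (mul_le_mul (h.q2 i) ?_ (fn_nonneg _) (by positivity))
    refine (fn_sum _ _).trans ?_
    unfold dn
    rw [Finset.sum_mul]
    refine Finset.sum_le_sum fun a _ => ?_
    exact (fn_mul _ _).trans (mul_le_mul_of_nonneg_left (h.Ga a b) (fn_nonneg _))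
  have h3 : fn (P₂ x * ∑ a, D a x * pdm i (Γ a b) x) ≤ 2 * N * (dn D x * (N * δ)) := by
    refine (fn_mul _ _).trans (mul_le_mul h.P2 ?_ (fn_nonneg _) (by positivity))
    refine (fn_sum _ _).trans ?_
    unfold dn
    rw [Finset.sum_mul]
    refine Finset.sum_le_sum fun a _ => ?_
    exact (fn_mul _ _).trans (mul_le_mul_of_nonneg_left (h.c1 i a b) (fn_nonneg _))
  calc _ ≤ N * δ * (dn D x * (2 * N)) + 2 * N * (dn D x * (N * δ)) := add_le_add h2 h3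
    _ = _ := by ring

end pt

end Vale.Agent.P088.S4.H870

end
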