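import Vale.Agent.P088.R2.H870.XB

/-!
# P088, stage 4, row X-GE: the trace free part of the main tensor, pointwise
-/

open MeasureTheory Set
open scoped ContDiff Matrix

noncomputable section

namespace Vale.Agent.P088.S4.H870

open Vale.Agent.P088.LR Vale.Agent.P088.LR.U Vale.Agent.P088.LR.H158
open Vale.Agent.P088.HY (VV ipm tfp)
open Vale.Agent.P088.PJ
open Vale.Agent.P088.PJ.H561 (fn fn_nonneg fn_sq fn_mul fn_add fn_sub fn_neg fn_smul fn_zero fn_sum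
  fn_le entry_le)
open Vale.Agent.P088.PJ.H341 (hd sy SD tfC_add tf_Z re_tr_tf coef_near ipm_ge korn_err cl_mono
  cl_sup Uk sm_Uk sm_pdm sm_sm sm_add sm_sub sm_sum cont_nq)

variable {n N : ℕ}

section pt

variable {δ : ℝ} {s₁ s₂ τ : MF n} {P₁ P₂ : MC n N} {G₂ β D : Fin n → MC n N}
  {Γ : Fin n → Fin n → MC n N} {x : V n}

theorem en_term (D : Fin n → MC n N) (x : V n) (i a : Fin n) : fn (pdm i (D a) x) ≤ en D x := by
  have h1 : fn (pdm i (D a) x) ≤ ∑ a, fn (pdm i (D a) x) :=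
    Finset.single_le_sum (f := fun a => fn (pdm i (D a) x)) (fun _ _ => fn_nonneg _)
      (Finset.mem_univ a)
  have h2 : ∑ a, fn (pdm i (D a) x) ≤ en D x :=
    Finset.single_le_sum (f := fun i => ∑ a, fn (pdm i (D a) x))
      (fun _ _ => Finset.sum_nonneg fun _ _ => fn_nonneg _) (Finset.mem_univ i)
  exact h1.trans h2

theorem en_col (D : Fin n → MC n N) (x : V n) (a : Fin n) : ∑ i, fn (pdm i (D a) x) ≤ en D x := by
  unfold en
  refine Finset.sum_le_sum fun i _ => ?_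
  exact Finset.single_le_sum (f := fun a => fn (pdm i (D a) x)) (fun _ _ => fn_nonneg _)
      (Finset.mem_univ a)

theorem dn_term (D : Fin n → MC n N) (x : V n) (a : Fin n) : fn (D a x) ≤ dn D x :=
  Finset.single_le_sum (f := fun a => fn (D a x)) (fun _ _ => fn_nonneg _) (Finset.mem_univ a)

/-- The constant of the zero order terms. -/
def cz (n N : ℕ) : ℝ := 2 * n + 12 * n * N ^ 2 + 4 * n ^ 2 + 4 * n * N

theorem cz_nonneg (n N : ℕ) : 0 ≤ cz n N := by unfold cz; positivity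

/-- The rest of `VR`. -/
theorem VR_rest (h : Nb δ s₁ s₂ τ P₁ P₂ G₂ β Γ x) (hs2 : SmM s₂)
    (hP : SmC P₂) (hG : ∀ a b, SmC (Γ a b)) (hD : ∀ a, SmC (D a)) (j b : Fin n) :
    fn (VR s₁ s₂ τ P₁ P₂ G₂ β Γ D j b x - Zt s₁ s₂ P₁ P₂ j b x
        - (2 : ℂ) • pdm j (Db P₂ Γ D b) x) ≤
      2 * δ * en (Db P₂ Γ D) x + cz n N * dn (Db P₂ Γ D) x := by
  have hN : (0 : ℝ) ≤ N := Nat.cast_nonneg N
  have hn : (0 : ℝ) ≤ n := Nat.cast_nonneg n
  have h0 := h.d0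
  have h1 := h.d1
  set B : Fin n → MC n N := Db P₂ Γ D with hB
  have hBs : ∀ b, SmC (B b) := fun b => sm_Db hP hG hD b
  have dnn := dn_nonneg B x
  have enn := en_nonneg B x
  have e0 : pdm j (B b) x = ∑ i, (((1 : Matrix (Fin n) (Fin n) ℝ) i j : ℝ) : ℂ) • pdm i (B b) x := by
    rw [Finset.sum_eq_single j]
    · rw [Matrix.one_apply_eq, Complex.ofReal_one, one_smul]
    · intro i _ hi
      rw [Matrix.one_apply_ne hi, Complex.ofReal_zero, zero_smul]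
    · intro hj
      exact absurd (Finset.mem_univ j) hj
  have e1 : ∑ i, pdm i (fun y => (s₂ y i j : ℂ) • B b y) x - pdm j (B b) x =
      ∑ i, (((pd i (fun y => s₂ y i j) x : ℝ) : ℂ) • B b x +
        ((s₂ x i j - (1 : Matrix (Fin n) (Fin n) ℝ) i j : ℝ) : ℂ) • pdm i (B b) x) := by
    rw [e0, ← Finset.sum_sub_distrib]
    refine Finset.sum_congr rfl fun i _ => ?_
    rw [pdm_smulR (hs2 i j) (hBs b)]
    push_cast
    rw [sub_smul]
    abel
  have e2 : VR s₁ s₂ τ P₁ P₂ G₂ β Γ D j b x - Zt s₁ s₂ P₁ P₂ j b x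
        - (2 : ℂ) • pdm j (B b) x =
      (2 : ℂ) • (∑ i, pdm i (fun y => (s₂ y i j : ℂ) • B b y) x - pdm j (B b) x)
        - bR s₂ P₂ G₂ j x * B b x
        - ∑ l, ((pd l (fun y => s₁ y j b) x : ℝ) : ℂ) • ∑ c, (mbl s₂ τ c l x : ℂ) • B c x
        - (∑ c, (mbl s₂ τ c b x : ℂ) • B c x) * β j x := by
    unfold VR
    rw [smul_sub]
    abel
  rw [e2, e1]
  have hm := m_bd (s_two h1 h.a2) h.t
  have hE : ∀ l, fn (∑ c, (mbl s₂ τ c l x : ℂ) • B c x) ≤ 4 * n * dn B x := by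
    intro l
    refine (fn_sum _ _).trans ?_
    unfold dn
    rw [Finset.mul_sum]
    refine Finset.sum_le_sum fun c _ => ?_
    rw [fn_smulR]
    exact mul_le_mul_of_nonneg_right (hm c l) (fn_nonneg _)
  have f1 : fn (∑ i, (((pd i (fun y => s₂ y i j) x : ℝ) : ℂ) • B b x +
        ((s₂ x i j - (1 : Matrix (Fin n) (Fin n) ℝ) i j : ℝ) : ℂ) • pdm i (B b) x)) ≤
      n * dn B x + δ * en B x := by
    refine (fn_sum _ _).trans ?_
    calc _ ≤ ∑ i : Fin n, (dn B x + δ * fn (pdm i (B b) x)) := by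
          refine Finset.sum_le_sum fun i _ => (fn_add _ _).trans ?_
          rw [fn_smulR, fn_smulR]
          have g1 : |pd i (fun y => s₂ y i j) x| * fn (B b x) ≤ 1 * dn B x :=
            mul_le_mul ((h.e2 i i j).trans h1) (dn_term B x b) (fn_nonneg _) zero_le_one
          have g2 : |s₂ x i j - (1 : Matrix (Fin n) (Fin n) ℝ) i j| * fn (pdm i (B b) x) ≤
              δ * fn (pdm i (B b) x) := mul_le_mul_of_nonneg_right (h.a2 i j) (fn_nonneg _)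
          linarith
      _ = n * dn B x + δ * ∑ i, fn (pdm i (B b) x) := by
          rw [Finset.sum_add_distrib, ← Finset.mul_sum]
          simp
      _ ≤ _ := by
          have := mul_le_mul_of_nonneg_left (en_col B x b) h0
          linarith
  have f2 : fn (bR s₂ P₂ G₂ j x * B b x) ≤ 12 * n * N ^ 2 * dn B x :=
    (fn_mul _ _).trans (mul_le_mul (h.bR hs2 hP j) (dn_term B x b) (fn_nonneg _) (by positivity))
  have f3 : fn (∑ l, ((pd l (fun y => s₁ y j b) x : ℝ) : ℂ) •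
      ∑ c, (mbl s₂ τ c l x : ℂ) • B c x) ≤ n * (4 * n * dn B x) := by
    refine (fn_sum _ _).trans ?_
    calc _ ≤ ∑ _l : Fin n, 4 * n * dn B x := by
          refine Finset.sum_le_sum fun l _ => ?_
          rw [fn_smulR]
          calc _ ≤ 1 * (4 * n * dn B x) :=
                mul_le_mul ((h.e1 l j b).trans h1) (hE l) (fn_nonneg _) zero_le_one
            _ = _ := one_mul _
      _ = _ := by simp
  have f4 : fn ((∑ c, (mbl s₂ τ c b x : ℂ) • B c x) * β j x) ≤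
      4 * n * dn B x * (N * 1) :=
    (fn_mul _ _).trans (mul_le_mul (hE b) ((h.be j).trans (by gcongr)) (fn_nonneg _) (by positivity))
  refine (fn_sub _ _).trans ?_
  refine (add_le_add (fn_sub _ _) le_rfl).trans ?_
  refine (add_le_add (add_le_add (fn_sub _ _) le_rfl) le_rfl).trans ?_
  rw [fn_smul]
  have n2 : ‖(2 : ℂ)‖ = 2 := by norm_num
  rw [n2]
  unfold cz
  calc _ ≤ 2 * (n * dn B x + δ * en B x) + 12 * n * N ^ 2 * dn B x + n * (4 * n * dn B x) +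
        4 * n * dn B x * (N * 1) := by
        refine add_le_add (add_le_add (add_le_add ?_ f2) f3) f4
        exact mul_le_mul_of_nonneg_left f1 (by norm_num)
    _ = _ := by ring

/-- The rest of the main tensor. -/
def Rm (s₁ s₂ τ : MF n) (P₁ P₂ : MC n N) (G₂ β : Fin n → MC n N) (Γ : Fin n → Fin n → MC n N)
    (D : Fin n → MC n N) (j b : Fin n) : MC n N := fun x =>
  VS s₁ s₂ τ P₁ P₂ G₂ β Γ D j b x - Zt s₁ s₂ P₁ P₂ j b x - sy (Db P₂ Γ D) j b x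

theorem Zt_symm {s₁ s₂ : MF n} {P₁ P₂ : MC n N} (h1 : ∀ x, (s₁ x).IsSymm) (h2 : ∀ x, (s₂ x).IsSymm)
    (j b : Fin n) (x : V n) : Zt s₁ s₂ P₁ P₂ b j x = Zt s₁ s₂ P₁ P₂ j b x := by
  unfold Zt TP
  rw [(h1 x).apply j b, (h2 x).apply j b]

theorem Rm_le (h : Nb δ s₁ s₂ τ P₁ P₂ G₂ β Γ x) (hs2 : SmM s₂)
    (hP : SmC P₂) (hG : ∀ a b, SmC (Γ a b)) (hD : ∀ a, SmC (D a))
    (y1 : ∀ x, (s₁ x).IsSymm) (y2 : ∀ x, (s₂ x).IsSymm) (j b : Fin n) :
    fn (Rm s₁ s₂ τ P₁ P₂ G₂ β Γ D j b x) ≤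
      2 * δ * en (Db P₂ Γ D) x + cz n N * dn (Db P₂ Γ D) x := by
  have e : Rm s₁ s₂ τ P₁ P₂ G₂ β Γ D j b x = (1 / 2 : ℂ) •
      ((VR s₁ s₂ τ P₁ P₂ G₂ β Γ D j b x - Zt s₁ s₂ P₁ P₂ j b x
        - (2 : ℂ) • pdm j (Db P₂ Γ D b) x) + (VR s₁ s₂ τ P₁ P₂ G₂ β Γ D b j x
        - Zt s₁ s₂ P₁ P₂ b j x - (2 : ℂ) • pdm b (Db P₂ Γ D j) x)) := by
    unfold Rm VS sy
    rw [Zt_symm y1 y2 j b x]
    ext p q
    simp only [Matrix.sub_apply, Matrix.add_apply, Matrix.smul_apply, smul_eq_mul]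
    ring
  rw [e, fn_smul]
  have n2 : ‖(1 / 2 : ℂ)‖ = 1 / 2 := by norm_num
  rw [n2]
  have h1 := VR_rest h hs2 hP hG hD j b
  have h2 := VR_rest h hs2 hP hG hD b j
  have h3 := fn_add (VR s₁ s₂ τ P₁ P₂ G₂ β Γ D j b x - Zt s₁ s₂ P₁ P₂ j b x
        - (2 : ℂ) • pdm j (Db P₂ Γ D b) x) (VR s₁ s₂ τ P₁ P₂ G₂ β Γ D b j x
        - Zt s₁ s₂ P₁ P₂ b j x - (2 : ℂ) • pdm b (Db P₂ Γ D j) x)
  linarith

/-- The trace free part is bounded. -/
theorem tf_le {s : MF n} (hn : 1 ≤ n) (h0 : 0 ≤ δ) (h1 : δ ≤ 1) (hδn : 6 * n * δ ≤ 1)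
    (h : ∀ i j, |s x i j - (1 : Matrix (Fin n) (Fin n) ℝ) i j| ≤ δ)
    (H : Fin n → Fin n → MC n N) (i j : Fin n) :
    fn (tfC s H i j x) ≤ fn (H i j x) + 8 * ∑ k, ∑ l, fn (H k l x) := by
  obtain ⟨-, c2⟩ := coef_near hn h0 h1 hδn h i j
  unfold tfC
  refine (fn_sub _ _).trans (add_le_add le_rfl ?_)
  rw [fn_smulR]
  have h2 : fn (ipC s H x) ≤ 2 * ∑ k, ∑ l, fn (H k l x) := by
    unfold ipC
    refine (fn_sum _ _).trans ?_
    rw [Finset.mul_sum]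
    refine Finset.sum_le_sum fun k _ => (fn_sum _ _).trans ?_
    rw [Finset.mul_sum]
    refine Finset.sum_le_sum fun l _ => ?_
    rw [fn_smulR]
    exact mul_le_mul_of_nonneg_right (s_two h1 h k l) (fn_nonneg _)
  calc _ ≤ 4 * (2 * ∑ k, ∑ l, fn (H k l x)) := mul_le_mul c2 h2 (fn_nonneg _) (by norm_num)
    _ = _ := by ring

theorem tf_le' {s : MF n} (hn : 1 ≤ n) (h0 : 0 ≤ δ) (h1 : δ ≤ 1) (hδn : 6 * n * δ ≤ 1)
    (h : ∀ i j, |s x i j - (1 : Matrix (Fin n) (Fin n) ℝ) i j| ≤ δ)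
    (H : Fin n → Fin n → MC n N) {c : ℝ} (hc : ∀ i j, fn (H i j x) ≤ c) (i j : Fin n) :
    fn (tfC s H i j x) ≤ (1 + 8 * n ^ 2) * c := by
  refine (tf_le hn h0 h1 hδn h H i j).trans ?_
  have h2 : ∑ k, ∑ l, fn (H k l x) ≤ n ^ 2 * c := by
    calc ∑ k, ∑ l, fn (H k l x) ≤ ∑ _k : Fin n, ∑ _l : Fin n, c :=
          Finset.sum_le_sum fun k _ => Finset.sum_le_sum fun l _ => hc k l
      _ = n ^ 2 * c := by simp; ring
  have h3 := hc i j
  linarith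

end pt

end Vale.Agent.P088.S4.H870

end
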