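import Vale.Agent.P088.R2.H870.XC

/-!
# P088, stage 4, row X-GE: the pointwise estimates
-/

open MeasureTheory Set
open scoped ContDiff Matrix

noncomputable section

namespace Vale.Agent.P088.S4.H870

open Vale.Agent.P088.LR Vale.Agent.P088.LR.U Vale.Agent.P088.LR.H158
open Vale.Agent.P088.HY (VV ipm tfp)
open Vale.Agent.P088.PJ
open Vale.Agent.P088.PJ.H561 (fn fn_nonneg fn_sq fn_mul fn_add fn_sub fn_neg fn_smul fn_zero fn_sum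
  fn_le entry_le)
open Vale.Agent.P088.PJ.H341 (hd sy SD tfC_add tf_Z re_tr_tf coef_near ipm_ge korn_err cl_mono
  cl_sup Uk sm_Uk sm_pdm sm_sm sm_add sm_sub sm_sum cont_nq)

variable {n N : ℕ}

/-! ## Sums of squares -/

theorem sq_lo {ι : Type*} [Fintype ι] (f : ι → ℝ) (hf : ∀ i, 0 ≤ f i) :
    ∑ i, f i ^ 2 ≤ (∑ i, f i) ^ 2 := by
  rw [sq (∑ i, f i), Finset.sum_mul]
  refine Finset.sum_le_sum fun i _ => ?_
  rw [sq]
  refine mul_le_mul_of_nonneg_left ?_ (hf i)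
  exact Finset.single_le_sum (f := f) (fun j _ => hf j) (Finset.mem_univ i)

theorem sq_hi {ι : Type*} [Fintype ι] (f : ι → ℝ) :
    (∑ i, f i) ^ 2 ≤ (Fintype.card ι : ℝ) * ∑ i, f i ^ 2 := by
  have := sq_sum_le_card_mul_sum_sq (s := (Finset.univ : Finset ι)) (f := f)
  rwa [Finset.card_univ] at this

theorem dn_sq (D : Fin n → MC n N) (x : V n) : dn D x ^ 2 ≤ n * d0 D x := by
  have := sq_hi fun a => fn (D a x)
  rw [Fintype.card_fin] at this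
  simp only [fn_sq] at this
  exact this

theorem d0_le (D : Fin n → MC n N) (x : V n) : d0 D x ≤ dn D x ^ 2 := by
  have := sq_lo (fun a => fn (D a x)) fun a => fn_nonneg _
  simp only [fn_sq] at this
  exact this

theorem en_sq (D : Fin n → MC n N) (x : V n) : en D x ^ 2 ≤ n ^ 2 * d1 D x := by
  have := sq_hi fun p : Fin n × Fin n => fn (pdm p.1 (D p.2) x)
  rw [Fintype.card_prod, Fintype.card_fin] at this
  simp only [fn_sq] at this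
  rw [Fintype.sum_prod_type, Fintype.sum_prod_type] at this
  have e : ∑ i, ∑ a, nq (pdm i (D a) x) = d1 D x := Finset.sum_comm
  rw [e] at this
  unfold en
  calc _ ≤ _ := this
    _ = _ := by push_cast; ring

theorem d1_le (D : Fin n → MC n N) (x : V n) : d1 D x ≤ en D x ^ 2 := by
  have := sq_lo (fun p : Fin n × Fin n => fn (pdm p.1 (D p.2) x)) fun a => fn_nonneg _
  simp only [fn_sq] at this
  rw [Fintype.sum_prod_type, Fintype.sum_prod_type] at this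
  have e : ∑ i, ∑ a, nq (pdm i (D a) x) = d1 D x := Finset.sum_comm
  rw [e] at this
  exact this

theorem d0_nonneg (D : Fin n → MC n N) (x : V n) : 0 ≤ d0 D x :=
  Finset.sum_nonneg fun _ _ => PJ.H341.nq_nonneg _

theorem d1_nonneg (D : Fin n → MC n N) (x : V n) : 0 ≤ d1 D x :=
  Finset.sum_nonneg fun _ _ => Finset.sum_nonneg fun _ _ => PJ.H341.nq_nonneg _

theorem tn_nonneg (H : Fin n → Fin n → MC n N) (x : V n) : 0 ≤ tn H x :=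
  Finset.sum_nonneg fun _ _ => Finset.sum_nonneg fun _ _ => PJ.H341.nq_nonneg _

/-! ## The functional -/

theorem re_tf {s : MF n} {H : Fin n → Fin n → MC n N} {x : V n} {j₀ : Fin N}
    (h : ∀ i j, (H i j x j₀ j₀).re = 0) (i j : Fin n) : (tfC s H i j x j₀ j₀).re = 0 := by
  unfold tfC ipC
  simp only [Matrix.sub_apply, Matrix.smul_apply, Matrix.sum_apply, smul_eq_mul, Complex.sub_re,
    Complex.re_ofReal_mul, Complex.re_sum, h, mul_zero, Finset.sum_const_zero, sub_zero]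

theorem re_pdm {O : Set (V n)} (hO : IsOpen O) {U : MC n N} (hU : SmC U) {j₀ : Fin N}
    (h : ∀ x ∈ O, (U x j₀ j₀).re = 0) (i : Fin n) {x : V n} (hx : x ∈ O) :
    (pdm i U x j₀ j₀).re = 0 := by
  have e2 : (pd i (fun x => U x j₀ j₀) x).re = pd i (fun x => (U x j₀ j₀).re) x := by
    have hd := (Complex.reCLM.hasFDerivAt (x := U x j₀ j₀)).comp x (dfa (hU j₀ j₀) x).hasFDerivAt
    unfold pd
    have e3 : (fun x => (U x j₀ j₀).re) = Complex.reCLM ∘ fun x => U x j₀ j₀ := rfl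
    rw [e3, hd.fderiv]
    rfl
  have e4 : (fun y => (U y j₀ j₀).re) =ᶠ[nhds x] fun _ => (0 : ℝ) :=
    Filter.eventually_of_mem (hO.mem_nhds hx) h
  have e5 : pd i (fun x => (U x j₀ j₀).re) x = 0 := by
    unfold pd
    rw [e4.fderiv_eq]
    simp
  exact e2.trans e5

section pt

variable {δ : ℝ} {s₁ s₂ τ : MF n} {P₁ P₂ : MC n N} {G₂ β D : Fin n → MC n N}
  {Γ : Fin n → Fin n → MC n N} {x : V n}

/-! ## `Db` against `D` -/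

/-- A constant. -/
def c1 (n N : ℕ) : ℝ := 1 + 3 * n * N ^ 2 + 4 * n ^ 2 * N ^ 2

theorem c1_pos (n N : ℕ) : 1 ≤ c1 n N := by
  unfold c1
  have : 0 ≤ 3 * (n : ℝ) * N ^ 2 := by positivity
  have : 0 ≤ 4 * (n : ℝ) ^ 2 * N ^ 2 := by positivity
  linarith

theorem dF_sum (h : Nb δ s₁ s₂ τ P₁ P₂ G₂ β Γ x) : ∑ b, fn (Fb P₂ Γ D b x) ≤
    3 * n * N ^ 2 * δ * dn D x := by
  calc ∑ b, fn (Fb P₂ Γ D b x) ≤ ∑ _b : Fin n, 3 * N ^ 2 * δ * dn D x :=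
        Finset.sum_le_sum fun b _ => Fb_le h b
    _ = _ := by simp; ring

theorem eF_sum (h : Nb δ s₁ s₂ τ P₁ P₂ G₂ β Γ x) (hP : SmC P₂) (hG : ∀ a b, SmC (Γ a b))
    (hD : ∀ a, SmC (D a)) : ∑ i, ∑ b, fn (pdm i (Fb P₂ Γ D b) x) ≤
    3 * n * N ^ 2 * δ * en D x + 4 * n ^ 2 * N ^ 2 * δ * dn D x := by
  calc ∑ i, ∑ b, fn (pdm i (Fb P₂ Γ D b) x) ≤ ∑ i : Fin n, ∑ _b : Fin n,
        (3 * N ^ 2 * δ * ∑ a, fn (pdm i (D a) x) + 4 * N ^ 2 * δ * dn D x) :=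
        Finset.sum_le_sum fun i _ => Finset.sum_le_sum fun b _ => dFb_le h hP hG hD i b
    _ = _ := by
        unfold en
        simp only [Finset.sum_const, Finset.card_univ, Fintype.card_fin, nsmul_eq_mul,
          mul_add, Finset.sum_add_distrib, ← Finset.mul_sum]
        ring

theorem Db_eq (b : Fin n) (x : V n) : Db P₂ Γ D b x = D b x + Fb P₂ Γ D b x := by
  unfold Fb
  abel

theorem pDb_eq (hP : SmC P₂) (hG : ∀ a b, SmC (Γ a b)) (hD : ∀ a, SmC (D a)) (i b : Fin n)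
    (x : V n) : pdm i (Db P₂ Γ D b) x = pdm i (D b) x + pdm i (Fb P₂ Γ D b) x := by
  have e : pdm i (Fb P₂ Γ D b) x = pdm i (Db P₂ Γ D b) x - pdm i (D b) x :=
    pdm_sub (sm_Db hP hG hD b) (hD b) i x
  rw [e]
  abel

theorem dnB_le (h : Nb δ s₁ s₂ τ P₁ P₂ G₂ β Γ x) : dn (Db P₂ Γ D) x ≤ c1 n N * dn D x := by
  have h1 : dn (Db P₂ Γ D) x ≤ dn D x + ∑ b, fn (Fb P₂ Γ D b x) := by
    unfold dn
    rw [← Finset.sum_add_distrib]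
    refine Finset.sum_le_sum fun b _ => ?_
    rw [Db_eq]
    exact fn_add _ _
  have h2 := dF_sum (D := D) h
  have h3 := dn_nonneg D x
  have h4 : 3 * n * N ^ 2 * δ * dn D x ≤ 3 * n * N ^ 2 * 1 * dn D x := by
    have := h.d1
    gcongr
  have h5 : 0 ≤ 4 * (n : ℝ) ^ 2 * N ^ 2 * dn D x := by positivity
  unfold c1
  linarith

theorem enB_le (h : Nb δ s₁ s₂ τ P₁ P₂ G₂ β Γ x) (hP : SmC P₂) (hG : ∀ a b, SmC (Γ a b))
    (hD : ∀ a, SmC (D a)) : δ * en (Db P₂ Γ D) x ≤ c1 n N * (δ * en D x + dn D x) := by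
  have h1 : en (Db P₂ Γ D) x ≤ en D x + ∑ i, ∑ b, fn (pdm i (Fb P₂ Γ D b) x) := by
    unfold en
    simp only [← Finset.sum_add_distrib]
    refine Finset.sum_le_sum fun i _ => Finset.sum_le_sum fun b _ => ?_
    rw [pDb_eq hP hG hD]
    exact fn_add _ _
  have h2 := eF_sum h hP hG hD
  have h0 := h.d0
  have hd := h.d1
  have h3 := dn_nonneg D x
  have h3' := en_nonneg D x
  have h4 : δ * en (Db P₂ Γ D) x ≤ δ * (en D x +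
      (3 * n * N ^ 2 * δ * en D x + 4 * n ^ 2 * N ^ 2 * δ * dn D x)) :=
    mul_le_mul_of_nonneg_left (by linarith) h0
  have h5 : δ * (3 * n * N ^ 2 * δ * en D x) ≤ 3 * n * N ^ 2 * (δ * en D x) := by
    have : 3 * n * N ^ 2 * (δ * en D x) * δ ≤ 3 * n * N ^ 2 * (δ * en D x) * 1 := by gcongr
    linarith
  have h6 : δ * (4 * n ^ 2 * N ^ 2 * δ * dn D x) ≤ 4 * n ^ 2 * N ^ 2 * dn D x := by
    have hdd : δ * δ ≤ 1 := by nlinarith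
    have : 4 * n ^ 2 * N ^ 2 * dn D x * (δ * δ) ≤ 4 * n ^ 2 * N ^ 2 * dn D x * 1 := by gcongr
    linarith
  have h7 : 0 ≤ 4 * (n : ℝ) ^ 2 * N ^ 2 * (δ * en D x) := by positivity
  have h8 : 0 ≤ 3 * (n : ℝ) * N ^ 2 * dn D x := by positivity
  unfold c1
  nlinarith

theorem dn_le (h : Nb δ s₁ s₂ τ P₁ P₂ G₂ β Γ x) (hs : 6 * n * N ^ 2 * δ ≤ 1) :
    dn D x ≤ 2 * dn (Db P₂ Γ D) x := by
  have h1 : dn D x ≤ dn (Db P₂ Γ D) x + ∑ b, fn (Fb P₂ Γ D b x) := by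
    unfold dn
    rw [← Finset.sum_add_distrib]
    refine Finset.sum_le_sum fun b _ => ?_
    have e : D b x = Db P₂ Γ D b x - Fb P₂ Γ D b x := by
      unfold Fb
      abel
    rw [e]
    exact fn_sub _ _
  have h2 := dF_sum (D := D) h
  have h3 := dn_nonneg D x
  have h4 : 3 * n * N ^ 2 * δ * dn D x ≤ 1 / 2 * dn D x := by
    refine mul_le_mul_of_nonneg_right ?_ h3
    linarith
  linarith

theorem en_le (h : Nb δ s₁ s₂ τ P₁ P₂ G₂ β Γ x) (hs : 6 * n * N ^ 2 * δ ≤ 1)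
    (hP : SmC P₂) (hG : ∀ a b, SmC (Γ a b)) (hD : ∀ a, SmC (D a)) :
    en D x ≤ 2 * en (Db P₂ Γ D) x + 16 * n ^ 2 * N ^ 2 * dn (Db P₂ Γ D) x := by
  have h1 : en D x ≤ en (Db P₂ Γ D) x + ∑ i, ∑ b, fn (pdm i (Fb P₂ Γ D b) x) := by
    unfold en
    simp only [← Finset.sum_add_distrib]
    refine Finset.sum_le_sum fun i _ => Finset.sum_le_sum fun b _ => ?_
    have e : pdm i (D b) x = pdm i (Db P₂ Γ D b) x - pdm i (Fb P₂ Γ D b) x := by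
      rw [pDb_eq hP hG hD]
      abel
    rw [e]
    exact fn_sub _ _
  have h2 := eF_sum h hP hG hD
  have hd := h.d1
  have h0 := h.d0
  have h3 := en_nonneg D x
  have h3' := dn_nonneg D x
  have h4 : 3 * n * N ^ 2 * δ * en D x ≤ 1 / 2 * en D x := by
    refine mul_le_mul_of_nonneg_right ?_ h3
    linarith
  have h5 : 4 * n ^ 2 * N ^ 2 * δ * dn D x ≤ 4 * n ^ 2 * N ^ 2 * 1 * (2 * dn (Db P₂ Γ D) x) := by
    have := dn_le (D := D) h hs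
    gcongr
  linarith

/-! ## The trace free parts -/

/-- The size. -/
def ww (δ : ℝ) (s₁ s₂ τ : MF n) (P₁ P₂ : MC n N) (G₂ β : Fin n → MC n N)
    (Γ : Fin n → Fin n → MC n N) (D : Fin n → MC n N) (x : V n) : ℝ :=
  (∑ i, ∑ j, fn (tfC s₁ (VS s₁ s₂ τ P₁ P₂ G₂ β Γ D) i j x)) + (δ * en D x + dn D x)

/-- A constant. -/
def c2 (n N : ℕ) : ℝ := (2 + cz n N) * c1 n N

theorem c2_nonneg (n N : ℕ) : 0 ≤ c2 n N := by
  have h1 := c1_pos n N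
  have h2 := cz_nonneg n N
  unfold c2
  positivity

theorem Rm_le' (h : Nb δ s₁ s₂ τ P₁ P₂ G₂ β Γ x) (hs2 : SmM s₂) (hP : SmC P₂)
    (hG : ∀ a b, SmC (Γ a b)) (hD : ∀ a, SmC (D a))
    (y1 : ∀ x, (s₁ x).IsSymm) (y2 : ∀ x, (s₂ x).IsSymm) (j b : Fin n) :
    fn (Rm s₁ s₂ τ P₁ P₂ G₂ β Γ D j b x) ≤ c2 n N * (δ * en D x + dn D x) := by
  have h1 := Rm_le h hs2 hP hG hD y1 y2 j b
  have h2 := enB_le h hP hG hD
  have h3 := dnB_le (D := D) h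
  have h4 := cz_nonneg n N
  have h5 := c1_pos n N
  have h6 := en_nonneg D x
  have h7 := dn_nonneg D x
  have h0 := h.d0
  have h8 : cz n N * dn (Db P₂ Γ D) x ≤ cz n N * (c1 n N * dn D x) :=
    mul_le_mul_of_nonneg_left h3 h4
  have h9 : 0 ≤ cz n N * (c1 n N * (δ * en D x)) := by positivity
  unfold c2
  nlinarith

theorem syF_le (h : Nb δ s₁ s₂ τ P₁ P₂ G₂ β Γ x) (hP : SmC P₂) (hG : ∀ a b, SmC (Γ a b))
    (hD : ∀ a, SmC (D a)) (i j : Fin n) :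
    fn (sy (Fb P₂ Γ D) i j x) ≤ 8 * N ^ 2 * (δ * en D x + dn D x) := by
  have h0 := h.d0
  have hd := h.d1
  have h3 := en_nonneg D x
  have h3' := dn_nonneg D x
  have h1 : ∀ i b, fn (pdm i (Fb P₂ Γ D b) x) ≤ 4 * N ^ 2 * (δ * en D x + dn D x) := by
    intro i b
    refine (dFb_le h hP hG hD i b).trans ?_
    have h2 : ∑ a, fn (pdm i (D a) x) ≤ en D x := by
      unfold en
      exact Finset.single_le_sum (f := fun i => ∑ a, fn (pdm i (D a) x))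
        (fun _ _ => Finset.sum_nonneg fun _ _ => fn_nonneg _) (Finset.mem_univ i)
    have h4 : 3 * N ^ 2 * δ * ∑ a, fn (pdm i (D a) x) ≤ 3 * N ^ 2 * δ * en D x := by gcongr
    have h5 : 4 * N ^ 2 * δ * dn D x ≤ 4 * N ^ 2 * 1 * dn D x := by gcongr
    have h6 : 0 ≤ (N : ℝ) ^ 2 * (δ * en D x) := by positivity
    linarith
  unfold sy
  refine (fn_add _ _).trans ?_
  have a1 := h1 i j
  have a2 := h1 j i
  linarith

theorem VS_eq (h0 : ipm s₁ s₁ x ≠ 0) (i j : Fin n) :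
    tfC s₁ (VS s₁ s₂ τ P₁ P₂ G₂ β Γ D) i j x =
      ((tfp s₁ (hd s₁ s₂) x i j : ℝ) : ℂ) • P₂ x + (tfC s₁ (sy (Db P₂ Γ D)) i j x +
        tfC s₁ (Rm s₁ s₂ τ P₁ P₂ G₂ β Γ D) i j x) := by
  have e1 : tfC s₁ (VS s₁ s₂ τ P₁ P₂ G₂ β Γ D) i j x =
      tfC s₁ (Zt s₁ s₂ P₁ P₂) i j x +
        tfC s₁ (fun i j x => sy (Db P₂ Γ D) i j x + Rm s₁ s₂ τ P₁ P₂ G₂ β Γ D i j x) i j x := by
    refine tfC_add s₁ (fun i j => ?_) i j
    unfold Rm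
    abel
  have e2 : tfC s₁ (fun i j x => sy (Db P₂ Γ D) i j x + Rm s₁ s₂ τ P₁ P₂ G₂ β Γ D i j x) i j x =
      tfC s₁ (sy (Db P₂ Γ D)) i j x + tfC s₁ (Rm s₁ s₂ τ P₁ P₂ G₂ β Γ D) i j x :=
    tfC_add s₁ (fun i j => rfl) i j
  rw [e1, e2, tf_Z h0]

theorem syB_eq (hP : SmC P₂) (hG : ∀ a b, SmC (Γ a b)) (hD : ∀ a, SmC (D a)) (i j : Fin n) :
    tfC s₁ (sy (Db P₂ Γ D)) i j x = tfC s₁ (sy D) i j x + tfC s₁ (sy (Fb P₂ Γ D)) i j x := by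
  refine tfC_add s₁ (fun i j => ?_) i j
  unfold sy
  rw [pDb_eq hP hG hD, pDb_eq hP hG hD]
  abel

/-- A constant. -/
def c3' (n N : ℕ) : ℝ := 2 * (1 + (1 + 8 * n ^ 2) * (8 * N ^ 2) + (1 + 8 * n ^ 2) * c2 n N)

theorem c3'_nonneg (n N : ℕ) : 0 ≤ c3' n N := by
  have := c2_nonneg n N
  unfold c3'
  positivity

theorem fn_tfVS_le (δ : ℝ) (hδ : 0 ≤ δ) (i j : Fin n) :
    fn (tfC s₁ (VS s₁ s₂ τ P₁ P₂ G₂ β Γ D) i j x) ≤ ww δ s₁ s₂ τ P₁ P₂ G₂ β Γ D x := by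
  have h1 : fn (tfC s₁ (VS s₁ s₂ τ P₁ P₂ G₂ β Γ D) i j x) ≤
      ∑ i, ∑ j, fn (tfC s₁ (VS s₁ s₂ τ P₁ P₂ G₂ β Γ D) i j x) :=
    (Finset.single_le_sum (f := fun j => fn (tfC s₁ (VS s₁ s₂ τ P₁ P₂ G₂ β Γ D) i j x))
      (fun _ _ => fn_nonneg _) (Finset.mem_univ j)).trans
    (Finset.single_le_sum (f := fun i => ∑ j, fn (tfC s₁ (VS s₁ s₂ τ P₁ P₂ G₂ β Γ D) i j x))
      (fun _ _ => Finset.sum_nonneg fun _ _ => fn_nonneg _) (Finset.mem_univ i))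
  have h3 := en_nonneg D x
  have h3' := dn_nonneg D x
  have : 0 ≤ δ * en D x := by positivity
  unfold ww
  linarith

theorem ed_le_ww (δ : ℝ) : δ * en D x + dn D x ≤ ww δ s₁ s₂ τ P₁ P₂ G₂ β Γ D x := by
  have : 0 ≤ ∑ i, ∑ j, fn (tfC s₁ (VS s₁ s₂ τ P₁ P₂ G₂ β Γ D) i j x) :=
    Finset.sum_nonneg fun _ _ => Finset.sum_nonneg fun _ _ => fn_nonneg _
  unfold ww
  linarith

theorem tf_abs (hn : 1 ≤ n) (h : Nb δ s₁ s₂ τ P₁ P₂ G₂ β Γ x) (hδn : 6 * n * δ ≤ 1)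
    (hδN : 2 * N * δ ≤ 1) (hs2 : SmM s₂) (hP : SmC P₂)
    (hG : ∀ a b, SmC (Γ a b)) (hD : ∀ a, SmC (D a))
    (y1 : ∀ x, (s₁ x).IsSymm) (y2 : ∀ x, (s₂ x).IsSymm) {j₀ : Fin N}
    (hj : ∀ i a, (pdm i (D a) x j₀ j₀).re = 0) (i j : Fin n) :
    |tfp s₁ (hd s₁ s₂) x i j| ≤ c3' n N * ww δ s₁ s₂ τ P₁ P₂ G₂ β Γ D x := by
  have hn0 : (1 : ℝ) ≤ n := by exact_mod_cast hn
  have h0 : ipm s₁ s₁ x ≠ 0 := by
    have := ipm_ge h.d0 h.d1 hδn h.a1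
    have h2 : 0 < ipm s₁ s₁ x := by linarith
    exact h2.ne'
  set W := tfC s₁ (VS s₁ s₂ τ P₁ P₂ G₂ β Γ D) i j x with hW
  set F := tfC s₁ (sy (Fb P₂ Γ D)) i j x with hF
  set R := tfC s₁ (Rm s₁ s₂ τ P₁ P₂ G₂ β Γ D) i j x with hR
  set w := ww δ s₁ s₂ τ P₁ P₂ G₂ β Γ D x with hw
  set t := tfp s₁ (hd s₁ s₂) x i j with ht
  have e1 : W = (t : ℂ) • P₂ x + ((tfC s₁ (sy D) i j x + F) + R) := by
    rw [hW, VS_eq h0, syB_eq hP hG hD]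
  have e2 : (tfC s₁ (sy D) i j x j₀ j₀).re = 0 := re_tf (fun i j => by
    unfold sy
    rw [Matrix.add_apply, Complex.add_re, hj, hj, add_zero]) i j
  have e3 : t * (P₂ x j₀ j₀).re = (W j₀ j₀).re - (F j₀ j₀).re - (R j₀ j₀).re := by
    rw [e1]
    simp only [Matrix.add_apply, Matrix.smul_apply, smul_eq_mul, Complex.add_re,
      Complex.re_ofReal_mul, e2]
    ring
  have re_le : ∀ A : Matrix (Fin N) (Fin N) ℂ, |(A j₀ j₀).re| ≤ fn A := fun A =>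
    (Complex.abs_re_le_norm _).trans (entry_le A j₀ j₀)
  have h1 : 1 / 2 ≤ (P₂ x j₀ j₀).re := by
    have h2 := re_le (P₂ x - 1)
    rw [Matrix.sub_apply, Matrix.one_apply_eq, Complex.sub_re, Complex.one_re] at h2
    have h3 := h.p2
    have := (abs_le.1 h2).1
    linarith
  have hw1 : δ * en D x + dn D x ≤ w := ed_le_ww δ
  have hW1 : fn W ≤ w := fn_tfVS_le δ h.d0 i j
  have hw0 : 0 ≤ w := (fn_nonneg _).trans hW1
  have hc2 := c2_nonneg n N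
  have hF1 : fn F ≤ (1 + 8 * n ^ 2) * (8 * N ^ 2) * w := by
    have := tf_le' hn h.d0 h.d1 hδn h.a1 (sy (Fb P₂ Γ D)) (fun i j => syF_le h hP hG hD i j) i j
    calc _ ≤ _ := this
      _ = (1 + 8 * n ^ 2) * (8 * N ^ 2) * (δ * en D x + dn D x) := by ring
      _ ≤ _ := by gcongr
  have hR1 : fn R ≤ (1 + 8 * n ^ 2) * c2 n N * w := by
    have := tf_le' hn h.d0 h.d1 hδn h.a1 (Rm s₁ s₂ τ P₁ P₂ G₂ β Γ D)
      (fun i j => Rm_le' h hs2 hP hG hD y1 y2 i j) i j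
    calc _ ≤ _ := this
      _ = (1 + 8 * n ^ 2) * c2 n N * (δ * en D x + dn D x) := by ring
      _ ≤ _ := by gcongr
  have h5 : |t| * (P₂ x j₀ j₀).re ≤ w + (1 + 8 * n ^ 2) * (8 * N ^ 2) * w +
      (1 + 8 * n ^ 2) * c2 n N * w := by
    have h6 : |t| * (P₂ x j₀ j₀).re = |t * (P₂ x j₀ j₀).re| := by
      rw [abs_mul, abs_of_pos (by linarith : 0 < (P₂ x j₀ j₀).re)]
    rw [h6, e3]
    refine (abs_sub _ _).trans (add_le_add ((abs_sub _ _).trans (add_le_add ?_ ?_)) ?_)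
    · exact (re_le W).trans hW1
    · exact (re_le F).trans hF1
    · exact (re_le R).trans hR1
  have h6 : |t| * (1 / 2) ≤ |t| * (P₂ x j₀ j₀).re :=
    mul_le_mul_of_nonneg_left h1 (abs_nonneg _)
  unfold c3'
  linarith

/-- A constant. -/
def c4 (n N : ℕ) : ℝ := 1 + 2 * N * c3' n N + (1 + 8 * n ^ 2) * c2 n N

theorem c4_nonneg (n N : ℕ) : 0 ≤ c4 n N := by
  have h1 := c2_nonneg n N
  have h2 := c3'_nonneg n N
  unfold c4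
  positivity

theorem syB_le (hn : 1 ≤ n) (h : Nb δ s₁ s₂ τ P₁ P₂ G₂ β Γ x) (hδn : 6 * n * δ ≤ 1)
    (hδN : 2 * N * δ ≤ 1) (hs2 : SmM s₂) (hP : SmC P₂)
    (hG : ∀ a b, SmC (Γ a b)) (hD : ∀ a, SmC (D a))
    (y1 : ∀ x, (s₁ x).IsSymm) (y2 : ∀ x, (s₂ x).IsSymm) {j₀ : Fin N}
    (hj : ∀ i a, (pdm i (D a) x j₀ j₀).re = 0) (i j : Fin n) :
    fn (tfC s₁ (sy (Db P₂ Γ D)) i j x) ≤ c4 n N * ww δ s₁ s₂ τ P₁ P₂ G₂ β Γ D x := by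
  have hn0 : (1 : ℝ) ≤ n := by exact_mod_cast hn
  have h0 : ipm s₁ s₁ x ≠ 0 := by
    have := ipm_ge h.d0 h.d1 hδn h.a1
    have h2 : 0 < ipm s₁ s₁ x := by linarith
    exact h2.ne'
  have ht := tf_abs hn h hδn hδN hs2 hP hG hD y1 y2 hj i j
  set W := tfC s₁ (VS s₁ s₂ τ P₁ P₂ G₂ β Γ D) i j x with hW
  set R := tfC s₁ (Rm s₁ s₂ τ P₁ P₂ G₂ β Γ D) i j x with hR
  set w := ww δ s₁ s₂ τ P₁ P₂ G₂ β Γ D x with hw
  have e1 : tfC s₁ (sy (Db P₂ Γ D)) i j x = W - ((tfp s₁ (hd s₁ s₂) x i j : ℝ) : ℂ) • P₂ x - R := by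
    rw [hW, VS_eq h0]
    abel
  have hw1 : δ * en D x + dn D x ≤ w := ed_le_ww δ
  have hW1 : fn W ≤ w := fn_tfVS_le δ h.d0 i j
  have hw0 : 0 ≤ w := (fn_nonneg _).trans hW1
  have hc2 := c2_nonneg n N
  have hc3 := c3'_nonneg n N
  have hR1 : fn R ≤ (1 + 8 * n ^ 2) * c2 n N * w := by
    have := tf_le' hn h.d0 h.d1 hδn h.a1 (Rm s₁ s₂ τ P₁ P₂ G₂ β Γ D)
      (fun i j => Rm_le' h hs2 hP hG hD y1 y2 i j) i j
    calc _ ≤ _ := this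
      _ = (1 + 8 * n ^ 2) * c2 n N * (δ * en D x + dn D x) := by ring
      _ ≤ _ := by gcongr
  have hT1 : fn (((tfp s₁ (hd s₁ s₂) x i j : ℝ) : ℂ) • P₂ x) ≤ c3' n N * w * (2 * N) := by
    rw [fn_smulR]
    exact mul_le_mul ht h.P2 (fn_nonneg _) (by positivity)
  rw [e1]
  refine (fn_sub _ _).trans ((add_le_add (fn_sub _ _) le_rfl).trans ?_)
  unfold c4
  linarith

/-! ## Squares -/

theorem ww_sq (hn : 1 ≤ n) (δ : ℝ) : ww δ s₁ s₂ τ P₁ P₂ G₂ β Γ D x ^ 2 ≤ 3 * n ^ 2 *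
    (tn (tfC s₁ (VS s₁ s₂ τ P₁ P₂ G₂ β Γ D)) x + δ ^ 2 * d1 D x + d0 D x) := by
  have hn0 : (1 : ℝ) ≤ n := by exact_mod_cast hn
  set H := tfC s₁ (VS s₁ s₂ τ P₁ P₂ G₂ β Γ D) with hH
  have h1 : (∑ i, ∑ j, fn (H i j x)) ^ 2 ≤ n ^ 2 * tn H x := by
    have := sq_hi fun p : Fin n × Fin n => fn (H p.1 p.2 x)
    rw [Fintype.card_prod, Fintype.card_fin] at this
    simp only [fn_sq] at this
    rw [Fintype.sum_prod_type, Fintype.sum_prod_type] at this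
    unfold tn
    calc _ ≤ _ := this
      _ = _ := by push_cast; ring
  have h2 := en_sq D x
  have h3 := dn_sq D x
  have h4 := d0_nonneg D x
  have h3' : (n : ℝ) * d0 D x ≤ n ^ 2 * d0 D x := by
    refine mul_le_mul_of_nonneg_right ?_ h4
    nlinarith
  have h2' : δ ^ 2 * en D x ^ 2 ≤ δ ^ 2 * (n ^ 2 * d1 D x) :=
    mul_le_mul_of_nonneg_left h2 (sq_nonneg _)
  have key : ∀ a b c : ℝ, (a + (b + c)) ^ 2 ≤ 3 * (a ^ 2 + b ^ 2 + c ^ 2) := by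
    intro a b c
    nlinarith [sq_nonneg (a - b), sq_nonneg (a - c), sq_nonneg (b - c)]
  unfold ww
  refine (key _ _ _).trans ?_
  rw [mul_pow]
  linarith

/-- The trace free part of `s₂ - s₁`. -/
theorem h0_eq (s₁ s₂ : MF n) (x : V n) : h0 s₁ s₂ x = ∑ i, ∑ j, tfp s₁ (hd s₁ s₂) x i j ^ 2 := by
  have e : S4.ph s₁ s₂ x = ipm s₁ (hd s₁ s₂) x / ipm s₁ s₁ x := by
    unfold S4.ph ipm hd
    simp only [Matrix.sub_apply, sq]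
  unfold h0
  refine Finset.sum_congr rfl fun i _ => Finset.sum_congr rfl fun j _ => ?_
  rw [e]
  unfold tfp
  simp only [Matrix.sub_apply, Matrix.smul_apply, smul_eq_mul]
  rw [show hd s₁ s₂ x i j = s₂ x i j - s₁ x i j from rfl]

/-- A constant. -/
def c5 (n N : ℕ) : ℝ := 3 * n ^ 4 * c3' n N ^ 2

/-- (1) -/
theorem h0_le (hn : 1 ≤ n) (h : Nb δ s₁ s₂ τ P₁ P₂ G₂ β Γ x) (hδn : 6 * n * δ ≤ 1)
    (hδN : 2 * N * δ ≤ 1) (hs2 : SmM s₂) (hP : SmC P₂)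
    (hG : ∀ a b, SmC (Γ a b)) (hD : ∀ a, SmC (D a))
    (y1 : ∀ x, (s₁ x).IsSymm) (y2 : ∀ x, (s₂ x).IsSymm) {j₀ : Fin N}
    (hj : ∀ i a, (pdm i (D a) x j₀ j₀).re = 0) :
    h0 s₁ s₂ x ≤ c5 n N *
      (tn (tfC s₁ (VS s₁ s₂ τ P₁ P₂ G₂ β Γ D)) x + δ ^ 2 * d1 D x + d0 D x) := by
  rw [h0_eq]
  have h1 := fun i j => tf_abs hn h hδn hδN hs2 hP hG hD y1 y2 hj i j
  have h2 := ww_sq (s₁ := s₁) (s₂ := s₂) (τ := τ) (P₁ := P₁) (P₂ := P₂) (G₂ := G₂) (β := β) (Γ := Γ)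
    (D := D) (x := x) hn δ
  set w := ww δ s₁ s₂ τ P₁ P₂ G₂ β Γ D x with hw
  have h3 : ∀ i j, tfp s₁ (hd s₁ s₂) x i j ^ 2 ≤ c3' n N ^ 2 * w ^ 2 := by
    intro i j
    rw [← sq_abs, ← mul_pow]
    exact pow_le_pow_left₀ (abs_nonneg _) (h1 i j) 2
  calc _ ≤ ∑ _i : Fin n, ∑ _j : Fin n, c3' n N ^ 2 * w ^ 2 :=
        Finset.sum_le_sum fun i _ => Finset.sum_le_sum fun j _ => h3 i j
    _ = n ^ 2 * c3' n N ^ 2 * w ^ 2 := by simp; ring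
    _ ≤ n ^ 2 * c3' n N ^ 2 * (3 * n ^ 2 *
      (tn (tfC s₁ (VS s₁ s₂ τ P₁ P₂ G₂ β Γ D)) x + δ ^ 2 * d1 D x + d0 D x)) := by gcongr
    _ = _ := by unfold c5; ring

/-- A constant. -/
def c6 (n N : ℕ) : ℝ := 3 * n ^ 4 * (1280 * n ^ 2 * c1 n N ^ 2 + 2 * c4 n N ^ 2)

/-- (2) -/
theorem Uk_le (hn : 1 ≤ n) (h : Nb δ s₁ s₂ τ P₁ P₂ G₂ β Γ x) (hδn : 6 * n * δ ≤ 1)
    (hδN : 2 * N * δ ≤ 1) (hs2 : SmM s₂) (hP : SmC P₂)
    (hG : ∀ a b, SmC (Γ a b)) (hD : ∀ a, SmC (D a))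
    (y1 : ∀ x, (s₁ x).IsSymm) (y2 : ∀ x, (s₂ x).IsSymm) {j₀ : Fin N}
    (hj : ∀ i a, (pdm i (D a) x j₀ j₀).re = 0) :
    tn (Uk (Db P₂ Γ D)) x ≤ c6 n N *
      (tn (tfC s₁ (VS s₁ s₂ τ P₁ P₂ G₂ β Γ D)) x + δ ^ 2 * d1 D x + d0 D x) := by
  have h1 := fun i j => syB_le hn h hδn hδN hs2 hP hG hD y1 y2 hj i j
  have h2 := ww_sq (s₁ := s₁) (s₂ := s₂) (τ := τ) (P₁ := P₁) (P₂ := P₂) (G₂ := G₂) (β := β) (Γ := Γ)
    (D := D) (x := x) hn δ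
  have hw1 : δ * en D x + dn D x ≤ ww δ s₁ s₂ τ P₁ P₂ G₂ β Γ D x := ed_le_ww δ
  set w := ww δ s₁ s₂ τ P₁ P₂ G₂ β Γ D x with hw
  have h0 := h.d0
  have hc1 := c1_pos n N
  have hSD : δ ^ 2 * SD (Db P₂ Γ D) x ≤ c1 n N ^ 2 * w ^ 2 := by
    have e1 : SD (Db P₂ Γ D) x ≤ en (Db P₂ Γ D) x ^ 2 := d1_le (Db P₂ Γ D) x
    have e2 := enB_le h hP hG hD
    have e3 : δ * en (Db P₂ Γ D) x ≤ c1 n N * w := e2.trans (by gcongr)
    have e4 := en_nonneg (Db P₂ Γ D) x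
    calc δ ^ 2 * SD (Db P₂ Γ D) x ≤ δ ^ 2 * en (Db P₂ Γ D) x ^ 2 := by gcongr
      _ = (δ * en (Db P₂ Γ D) x) ^ 2 := by ring
      _ ≤ (c1 n N * w) ^ 2 := pow_le_pow_left₀ (by positivity) e3 2
      _ = _ := by ring
  have h3 : ∀ i j, nq (Uk (Db P₂ Γ D) i j x) ≤
      (1280 * n ^ 2 * c1 n N ^ 2 + 2 * c4 n N ^ 2) * w ^ 2 := by
    intro i j
    have k1 := korn_err (D := Db P₂ Γ D) hn h.d0 h.d1 hδn h.a1 i j
    have e : Uk (Db P₂ Γ D) i j x = (sy (Db P₂ Γ D) i j x -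
        (if i = j then (2 / n : ℂ) • ∑ l, pdm l (Db P₂ Γ D l) x else 0) -
          tfC s₁ (sy (Db P₂ Γ D)) i j x) + tfC s₁ (sy (Db P₂ Γ D)) i j x := by
      unfold Uk
      abel
    rw [e]
    refine (PJ.H341.nq_add _ _).trans ?_
    have k2 : nq (tfC s₁ (sy (Db P₂ Γ D)) i j x) ≤ c4 n N ^ 2 * w ^ 2 := by
      rw [← fn_sq, ← mul_pow]
      exact pow_le_pow_left₀ (fn_nonneg _) (h1 i j) 2
    have k3 : 640 * n ^ 2 * δ ^ 2 * SD (Db P₂ Γ D) x ≤ 640 * n ^ 2 * (c1 n N ^ 2 * w ^ 2) := by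
      calc _ = 640 * n ^ 2 * (δ ^ 2 * SD (Db P₂ Γ D) x) := by ring
        _ ≤ _ := by gcongr
    linarith
  have hK0 : 0 ≤ 1280 * (n : ℝ) ^ 2 * c1 n N ^ 2 + 2 * c4 n N ^ 2 := by positivity
  calc tn (Uk (Db P₂ Γ D)) x ≤ ∑ _i : Fin n, ∑ _j : Fin n,
        (1280 * n ^ 2 * c1 n N ^ 2 + 2 * c4 n N ^ 2) * w ^ 2 :=
        Finset.sum_le_sum fun i _ => Finset.sum_le_sum fun j _ => h3 i j
    _ = n ^ 2 * (1280 * n ^ 2 * c1 n N ^ 2 + 2 * c4 n N ^ 2) * w ^ 2 := by simp; ring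
    _ ≤ n ^ 2 * (1280 * n ^ 2 * c1 n N ^ 2 + 2 * c4 n N ^ 2) * (3 * n ^ 2 *
      (tn (tfC s₁ (VS s₁ s₂ τ P₁ P₂ G₂ β Γ D)) x + δ ^ 2 * d1 D x + d0 D x)) := by gcongr
    _ = _ := by unfold c6; ring

/-- A constant. -/
def c7 (n N : ℕ) : ℝ := 8 * n ^ 2 + 512 * n ^ 5 * N ^ 4 + 4 * n + n * c1 n N ^ 2

theorem c7_nonneg (n N : ℕ) : 0 ≤ c7 n N := by unfold c7; positivity

/-- (3) -/
theorem D_le (h : Nb δ s₁ s₂ τ P₁ P₂ G₂ β Γ x) (hs : 6 * n * N ^ 2 * δ ≤ 1)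
    (hP : SmC P₂) (hG : ∀ a b, SmC (Γ a b)) (hD : ∀ a, SmC (D a)) :
    d0 D x ≤ c7 n N * d0 (Db P₂ Γ D) x ∧
      d1 D x ≤ c7 n N * (d1 (Db P₂ Γ D) x + d0 (Db P₂ Γ D) x) ∧
      d0 (Db P₂ Γ D) x ≤ c7 n N * d0 D x := by
  have a1 := dn_le (D := D) h hs
  have a2 := en_le h hs hP hG hD
  have a3 := dnB_le (D := D) h
  have b1 := dn_nonneg D x
  have b2 := en_nonneg D x
  have b3 := dn_nonneg (Db P₂ Γ D) x
  have b4 := en_nonneg (Db P₂ Γ D) x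
  have e1 := dn_sq (Db P₂ Γ D) x
  have e2 := en_sq (Db P₂ Γ D) x
  have e3 := dn_sq D x
  have f1 := d0_nonneg (Db P₂ Γ D) x
  have f2 := d1_nonneg (Db P₂ Γ D) x
  have f3 := d0_nonneg D x
  have g1 : 0 ≤ 8 * (n : ℝ) ^ 2 := by positivity
  have g2 : 0 ≤ 512 * (n : ℝ) ^ 5 * N ^ 4 := by positivity
  have g3 : 0 ≤ 4 * (n : ℝ) := by positivity
  have g4 : 0 ≤ n * c1 n N ^ 2 := by positivity
  refine ⟨?_, ?_, ?_⟩
  · calc d0 D x ≤ dn D x ^ 2 := d0_le D x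
      _ ≤ (2 * dn (Db P₂ Γ D) x) ^ 2 := pow_le_pow_left₀ b1 a1 2
      _ = 4 * dn (Db P₂ Γ D) x ^ 2 := by ring
      _ ≤ 4 * (n * d0 (Db P₂ Γ D) x) := by gcongr
      _ = 4 * n * d0 (Db P₂ Γ D) x := by ring
      _ ≤ _ := by
        unfold c7
        gcongr
        linarith
  · have k1 : d1 D x ≤ 8 * n ^ 2 * d1 (Db P₂ Γ D) x + 512 * n ^ 5 * N ^ 4 * d0 (Db P₂ Γ D) x := by
      calc d1 D x ≤ en D x ^ 2 := d1_le D x
        _ ≤ (2 * en (Db P₂ Γ D) x + 16 * n ^ 2 * N ^ 2 * dn (Db P₂ Γ D) x) ^ 2 :=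
          pow_le_pow_left₀ b2 a2 2
        _ ≤ 8 * en (Db P₂ Γ D) x ^ 2 + 512 * n ^ 4 * N ^ 4 * dn (Db P₂ Γ D) x ^ 2 := by
          nlinarith [sq_nonneg (2 * en (Db P₂ Γ D) x - 16 * n ^ 2 * N ^ 2 * dn (Db P₂ Γ D) x)]
        _ ≤ 8 * (n ^ 2 * d1 (Db P₂ Γ D) x) + 512 * n ^ 4 * N ^ 4 * (n * d0 (Db P₂ Γ D) x) := by
          gcongr
        _ = _ := by ring
    have k2 : 8 * n ^ 2 * d1 (Db P₂ Γ D) x ≤ c7 n N * d1 (Db P₂ Γ D) x := by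
      unfold c7
      gcongr
      linarith
    have k3 : 512 * n ^ 5 * N ^ 4 * d0 (Db P₂ Γ D) x ≤ c7 n N * d0 (Db P₂ Γ D) x := by
      unfold c7
      gcongr
      linarith
    linarith
  · calc d0 (Db P₂ Γ D) x ≤ dn (Db P₂ Γ D) x ^ 2 := d0_le _ x
      _ ≤ (c1 n N * dn D x) ^ 2 := pow_le_pow_left₀ b3 a3 2
      _ = c1 n N ^ 2 * dn D x ^ 2 := by ring
      _ ≤ c1 n N ^ 2 * (n * d0 D x) := by gcongr
      _ = n * c1 n N ^ 2 * d0 D x := by ring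
      _ ≤ _ := by
        unfold c7
        gcongr
        linarith

/-- (4) -/
theorem hh_le (h : Nb δ s₁ s₂ τ P₁ P₂ G₂ β Γ x) (hδN : 2 * N * δ ≤ 1) (j₀ : Fin N) :
    hh s₁ s₂ x ≤ 2 * h0 s₁ s₂ x + 64 * n ^ 2 * (ps j₀ s₁ s₂ P₁ P₂ x ^ 2 + nq (P₂ x - P₁ x)) := by
  have re_le : ∀ A : Matrix (Fin N) (Fin N) ℂ, |(A j₀ j₀).re| ≤ fn A := fun A =>
    (Complex.abs_re_le_norm _).trans (entry_le A j₀ j₀)
  have h1 : 1 / 2 ≤ (P₂ x j₀ j₀).re := by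
    have h2 := re_le (P₂ x - 1)
    rw [Matrix.sub_apply, Matrix.one_apply_eq, Complex.sub_re, Complex.one_re] at h2
    have h3 := h.p2
    have := (abs_le.1 h2).1
    linarith
  have h2 : S4.ph s₁ s₂ x ^ 2 ≤ 8 * (ps j₀ s₁ s₂ P₁ P₂ x ^ 2 + nq (P₂ x - P₁ x)) := by
    set φ := S4.ph s₁ s₂ x with hφ
    have h3 : (φ * (P₂ x j₀ j₀).re) ^ 2 ≤ 2 * (ps j₀ s₁ s₂ P₁ P₂ x ^ 2 + nq (P₂ x - P₁ x)) := by
      have h4 : ((P₂ x - P₁ x) j₀ j₀).re ^ 2 ≤ nq (P₂ x - P₁ x) := by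
        rw [← fn_sq, ← sq_abs]
        exact pow_le_pow_left₀ (abs_nonneg _) (re_le _) 2
      have h5 : φ * (P₂ x j₀ j₀).re = ps j₀ s₁ s₂ P₁ P₂ x - ((P₂ x - P₁ x) j₀ j₀).re := by
        unfold ps
        ring
      rw [h5]
      nlinarith [sq_nonneg (ps j₀ s₁ s₂ P₁ P₂ x + ((P₂ x - P₁ x) j₀ j₀).re)]
    have h4 : φ ^ 2 * (1 / 4) ≤ (φ * (P₂ x j₀ j₀).re) ^ 2 := by
      rw [mul_pow]
      refine mul_le_mul_of_nonneg_left ?_ (sq_nonneg _)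
      nlinarith
    linarith
  have h3 : hh s₁ s₂ x ≤ 2 * h0 s₁ s₂ x + 8 * n ^ 2 * S4.ph s₁ s₂ x ^ 2 := by
    set φ := S4.ph s₁ s₂ x with hφ
    have h4 : ∀ i j, (s₂ x i j - s₁ x i j) ^ 2 ≤
        2 * (s₂ x i j - s₁ x i j - φ * s₁ x i j) ^ 2 + 8 * φ ^ 2 := by
      intro i j
      have h5 : s₁ x i j ^ 2 ≤ 4 := by
        rw [← sq_abs]
        have := pow_le_pow_left₀ (abs_nonneg _) (s_two h.d1 h.a1 i j) 2
        linarith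
      have h6 : (φ * s₁ x i j) ^ 2 ≤ φ ^ 2 * 4 := by
        rw [mul_pow]
        exact mul_le_mul_of_nonneg_left h5 (sq_nonneg _)
      nlinarith [sq_nonneg (s₂ x i j - s₁ x i j - 2 * (φ * s₁ x i j))]
    calc hh s₁ s₂ x ≤ ∑ i, ∑ j, (2 * (s₂ x i j - s₁ x i j - φ * s₁ x i j) ^ 2 + 8 * φ ^ 2) :=
          Finset.sum_le_sum fun i _ => Finset.sum_le_sum fun j _ => h4 i j
      _ = _ := by
          unfold h0
          simp only [Finset.sum_add_distrib, ← Finset.mul_sum, Finset.sum_const, Finset.card_univ,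
            Fintype.card_fin, nsmul_eq_mul]
          ring
  have h4 : 8 * n ^ 2 * S4.ph s₁ s₂ x ^ 2 ≤
      8 * n ^ 2 * (8 * (ps j₀ s₁ s₂ P₁ P₂ x ^ 2 + nq (P₂ x - P₁ x))) := by gcongr
  linarith

end pt

end Vale.Agent.P088.S4.H870

end
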