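import Vale.Agent.P088.R2.H870.XD

/-!
# P088, stage 4, row X-GE: weighted integrals
-/

open MeasureTheory Set
open scoped ContDiff Matrix

noncomputable section

namespace Vale.Agent.P088.S4.H870

open Vale.Agent.P088.LR Vale.Agent.P088.LR.U Vale.Agent.P088.LR.H158
open Vale.Agent.P088.HY (VV ipm tfp)
open Vale.Agent.P088.PJ
open Vale.Agent.P088.PJ.H561 (fn fn_nonneg fn_sq fn_mul fn_add fn_sub fn_neg fn_smul fn_zero fn_sum
  fn_le entry_le)
open Vale.Agent.P088.PJ.H341 (hd sy SD tfC_add tf_Z re_tr_tf coef_near ipm_ge korn_err cl_mono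
  cl_sup Uk sm_Uk sm_pdm sm_sm sm_add sm_sub sm_sum cont_nq nq_add nq_smul nq_sub nq_zero)

variable {n N : ℕ}

/-! ## The weights -/

section cut

variable {O B : Set (V n)} {ρ : ℝ} {χ χ₁ χ₂ g : V n → ℝ}

theorem cc_sub (hc : CC O B ρ χ χ₁ χ₂) : tsupport χ ⊆ tsupport χ₂ := by
  have a : tsupport χ ⊆ tsupport χ₁ := fun x hx => subset_tsupport _ (by
    rw [Function.mem_support, hc.i1 x hx]; exact one_ne_zero)
  have b : tsupport χ₁ ⊆ tsupport χ₂ := fun x hx => subset_tsupport _ (by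
    rw [Function.mem_support, hc.i2 x hx]; exact one_ne_zero)
  exact a.trans b

theorem cc_O (hc : CC O B ρ χ χ₁ χ₂) : tsupport χ ⊆ O := (cc_sub hc).trans hc.o2

theorem cc_cs (hc : CC O B ρ χ χ₁ χ₂) : HasCompactSupport χ :=
  IsCompact.of_isClosed_subset hc.c2 (isClosed_tsupport χ) (cc_sub hc)

theorem wI_int (hχ : Continuous χ) (hs : HasCompactSupport χ) (hg : Continuous g) {f : V n → ℝ}
    (hf : Continuous f) (ρ : ℝ) :
    Integrable fun x => χ x ^ 2 * Real.exp (2 * ρ * g x) * f x := by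
  refine Continuous.integrable_of_hasCompactSupport
    (((hχ.pow 2).mul (Real.continuous_exp.comp (continuous_const.mul hg))).mul hf) ?_
  refine HasCompactSupport.of_support_subset_isCompact hs fun x hx => ?_
  by_contra h
  have h1 : χ x = 0 := image_eq_zero_of_notMem_tsupport h
  exact hx (by simp [h1])

theorem wI_mono (hχ : Continuous χ) (hs : HasCompactSupport χ) (hg : Continuous g)
    {f h : V n → ℝ} (hf : Continuous f) (hh : Continuous h) (ρ : ℝ)
    (hfh : ∀ x ∈ tsupport χ, f x ≤ h x) : wI χ g ρ f ≤ wI χ g ρ h := by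
  refine integral_mono (wI_int hχ hs hg hf ρ) (wI_int hχ hs hg hh ρ) fun x => ?_
  by_cases hx : x ∈ tsupport χ
  · exact mul_le_mul_of_nonneg_left (hfh x hx) (by positivity)
  · have h1 : χ x = 0 := image_eq_zero_of_notMem_tsupport hx
    simp [h1]

theorem wI_add (hχ : Continuous χ) (hs : HasCompactSupport χ) (hg : Continuous g)
    {f h : V n → ℝ} (hf : Continuous f) (hh : Continuous h) (ρ : ℝ) :
    wI χ g ρ (fun x => f x + h x) = wI χ g ρ f + wI χ g ρ h := by
  unfold wI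
  rw [← integral_add (wI_int hχ hs hg hf ρ) (wI_int hχ hs hg hh ρ)]
  exact integral_congr_ae (Filter.Eventually.of_forall fun x => by simp only [mul_add])

theorem wI_mul (c : ℝ) (f : V n → ℝ) (ρ : ℝ) :
    wI χ g ρ (fun x => c * f x) = c * wI χ g ρ f := by
  unfold wI
  rw [← integral_const_mul]
  exact integral_congr_ae (Filter.Eventually.of_forall fun x => by
    change _ * (c * f x) = c * (_ * f x)
    ring)

theorem wI_nonneg {f : V n → ℝ} (hf : ∀ x, 0 ≤ f x) (ρ : ℝ) : 0 ≤ wI χ g ρ f :=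
  integral_nonneg fun x => mul_nonneg (by positivity) (hf x)

theorem wB_int (hm : MeasurableSet B) {K : Set (V n)} (hK : IsCompact K) (hB : B ⊆ K)
    (hg : Continuous g) {f : V n → ℝ} (hf : Continuous f) (ρ : ℝ) :
    IntegrableOn (fun x => Real.exp (2 * ρ * g x) * f x) B :=
  (((Real.continuous_exp.comp (continuous_const.mul hg)).mul hf).continuousOn.integrableOn_compact
    hK).mono_set hB

theorem wB_mono (hm : MeasurableSet B) {K : Set (V n)} (hK : IsCompact K) (hB : B ⊆ K)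
    (hg : Continuous g) {f h : V n → ℝ} (hf : Continuous f) (hh : Continuous h) (ρ : ℝ)
    (hfh : ∀ x ∈ B, f x ≤ h x) : wB B g ρ f ≤ wB B g ρ h :=
  setIntegral_mono_on (wB_int hm hK hB hg hf ρ) (wB_int hm hK hB hg hh ρ) hm fun x hx =>
    mul_le_mul_of_nonneg_left (hfh x hx) (by positivity)

theorem wB_mul (c : ℝ) (f : V n → ℝ) (ρ : ℝ) :
    wB B g ρ (fun x => c * f x) = c * wB B g ρ f := by
  unfold wB
  rw [← integral_const_mul]
  exact integral_congr_ae (Filter.Eventually.of_forall fun x => by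
    change _ * (c * f x) = c * (_ * f x)
    ring)

theorem wB_nonneg {f : V n → ℝ} (hf : ∀ x, 0 ≤ f x) (ρ : ℝ) : 0 ≤ wB B g ρ f :=
  integral_nonneg fun x => mul_nonneg (by positivity) (hf x)

end cut

/-! ## The Korn inequality for matrix functions -/

/-- (KO) for matrices. -/
theorem korn_mat (hKO : RowXKO) (hn : 3 ≤ n) (N : ℕ) {M c₀ : ℝ} (hM : 0 < M) (hc : 0 < c₀) :
    ∃ C ρ₀ : ℝ, 0 < C ∧ 1 ≤ ρ₀ ∧
    ∀ O : Set (V n), IsOpen O → ∀ g : V n → ℝ, ContDiff ℝ ∞ g → (∀ x ∈ O, ∀ i, |pd i g x| ≤ M) →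
    (∀ x ∈ O, ∀ i j, |pd i (pd j g) x| ≤ M) → (∀ x ∈ O, c₀ ≤ ∑ i, pd i g x ^ 2) →
    ∀ ρ : ℝ, ρ₀ ≤ ρ → ∀ v : Fin n → MC n N, (∀ i, SmC (v i)) → ∀ K : Set (V n), IsCompact K →
    K ⊆ O → (∀ i, ∀ x ∉ K, v i x = 0) →
    ∫ x, Real.exp (2 * ρ * g x) * (d1 v x + ρ ^ 2 * d0 v x) ≤
      C * ∫ x, Real.exp (2 * ρ * g x) * tn (Uk v) x := by
  obtain ⟨C, ρ₀, hC, hρ₀, hk⟩ := hKO n hn M c₀ hM hc
  refine ⟨C, ρ₀, hC, hρ₀, ?_⟩
  intro O hO g hg g1 g2 g3 ρ hρ v hv K hK hKO' hoff
  have hK' : IsOpen Kᶜ := hK.isClosed.isOpen_compl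
  have hpd : ∀ i c a b, ∀ x ∉ K, pd i (fun y => v c y a b) x = 0 := by
    intro i c a b x hx
    have e4 : (fun y => v c y a b) =ᶠ[nhds x] fun _ => (0 : ℂ) :=
      Filter.eventually_of_mem (hK'.mem_nhds hx) fun y hy => by
        change v c y a b = 0
        rw [hoff c y hy]; rfl
    unfold pd
    rw [e4.fderiv_eq]
    simp
  have hpdm : ∀ i c, ∀ x ∉ K, pdm i (v c) x = 0 := by
    intro i c x hx
    ext a b
    exact hpd i c a b x hx
  have cE : Continuous fun x => Real.exp (2 * ρ * g x) :=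
    Real.continuous_exp.comp (continuous_const.mul hg.continuous)
  have e1 : ∀ x, d1 v x = ∑ a, ∑ b, ∑ i, ∑ c, ‖pd i (fun y => v c y a b) x‖ ^ 2 := by
    intro x
    unfold d1 nq
    have e : ∀ c i, ∑ a, ∑ b, ‖pdm i (v c) x a b‖ ^ 2 =
        ∑ a, ∑ b, ‖pd i (fun y => v c y a b) x‖ ^ 2 := fun c i => rfl
    simp only [e]
    rw [Finset.sum_comm]
    rw [Finset.sum_congr rfl fun i _ => Finset.sum_comm]
    rw [Finset.sum_comm]
    refine Finset.sum_congr rfl fun a _ => ?_
    rw [Finset.sum_congr rfl fun i _ => Finset.sum_comm]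
    rw [Finset.sum_comm]
  have e0 : ∀ x, d0 v x = ∑ a, ∑ b, ∑ c, ‖v c x a b‖ ^ 2 := by
    intro x
    unfold d0 nq
    rw [Finset.sum_comm]
    exact Finset.sum_congr rfl fun a _ => Finset.sum_comm
  have e2 : ∀ x, tn (Uk v) x = ∑ a, ∑ b, ∑ i, ∑ j, ‖Uk v i j x a b‖ ^ 2 := by
    intro x
    unfold tn nq
    rw [Finset.sum_congr rfl fun i _ => Finset.sum_comm]
    rw [Finset.sum_comm]
    refine Finset.sum_congr rfl fun a _ => ?_
    rw [Finset.sum_congr rfl fun i _ => Finset.sum_comm]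
    rw [Finset.sum_comm]
  have intK : ∀ {f : V n → ℝ}, Continuous f → (∀ x ∉ K, f x = 0) → Integrable f := by
    intro f hf h0
    refine hf.integrable_of_hasCompactSupport ?_
    refine HasCompactSupport.of_support_subset_isCompact hK fun x hx => ?_
    by_contra h
    exact hx (h0 x h)
  have i1 : ∀ a b : Fin N, Integrable fun x => Real.exp (2 * ρ * g x) *
      ((∑ i, ∑ c, ‖pd i (fun y => v c y a b) x‖ ^ 2) + ρ ^ 2 * ∑ c, ‖v c x a b‖ ^ 2) := by
    intro a b
    refine intK ?_ ?_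
    · exact cE.mul ((continuous_finsetSum _ fun i _ => continuous_finsetSum _ fun c _ =>
        (contDiff_pd (hv c a b) i).continuous.norm.pow 2).add (continuous_const.mul
          (continuous_finsetSum _ fun c _ => (hv c a b).continuous.norm.pow 2)))
    · intro x hx
      simp [hpd _ _ a b x hx, hoff _ x hx]
  have i2 : ∀ a b : Fin N, Integrable fun x => Real.exp (2 * ρ * g x) *
      ∑ i, ∑ j, ‖Uk v i j x a b‖ ^ 2 := by
    intro a b
    refine intK ?_ ?_
    · exact cE.mul (continuous_finsetSum _ fun i _ => continuous_finsetSum _ fun j _ =>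
        (sm_Uk hv i j a b).continuous.norm.pow 2)
    · intro x hx
      have : ∀ i j, Uk v i j x = 0 := by
        intro i j
        unfold Uk sy
        simp [hpdm _ _ x hx]
      simp [this]
  have L : ∫ x, Real.exp (2 * ρ * g x) * (d1 v x + ρ ^ 2 * d0 v x) =
      ∑ a, ∑ b, ∫ x, Real.exp (2 * ρ * g x) *
      ((∑ i, ∑ c, ‖pd i (fun y => v c y a b) x‖ ^ 2) + ρ ^ 2 * ∑ c, ‖v c x a b‖ ^ 2) := by
    rw [Finset.sum_congr rfl fun a _ => (integral_finsetSum _ fun b _ => i1 a b).symm,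
      ← integral_finsetSum _ fun a _ => integrable_finsetSum _ fun b _ => i1 a b]
    refine integral_congr_ae (Filter.Eventually.of_forall fun x => ?_)
    simp only [e1, e0, ← Finset.mul_sum, Finset.sum_add_distrib]
  have R : ∫ x, Real.exp (2 * ρ * g x) * tn (Uk v) x =
      ∑ a, ∑ b, ∫ x, Real.exp (2 * ρ * g x) * ∑ i, ∑ j, ‖Uk v i j x a b‖ ^ 2 := by
    rw [Finset.sum_congr rfl fun a _ => (integral_finsetSum _ fun b _ => i2 a b).symm,
      ← integral_finsetSum _ fun a _ => integrable_finsetSum _ fun b _ => i2 a b]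
    refine integral_congr_ae (Filter.Eventually.of_forall fun x => ?_)
    simp only [e2, ← Finset.mul_sum]
  rw [L, R, Finset.mul_sum]
  refine Finset.sum_le_sum fun a _ => ?_
  rw [Finset.mul_sum]
  refine Finset.sum_le_sum fun b _ => ?_
  have hts : ∀ c, tsupport (fun y => v c y a b) ⊆ K := by
    intro c
    refine closure_minimal (fun x hx => ?_) hK.isClosed
    by_contra h
    exact hx (by change v c x a b = 0; rw [hoff c x h]; rfl)
  have h3 := hk O hO g hg g1 g2 g3 ρ hρ (fun c y => v c y a b) (fun c => hv c a b)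
    (fun c => IsCompact.of_isClosed_subset hK (isClosed_tsupport _) (hts c))
    (fun c => (hts c).trans hKO')
  refine h3.trans (le_of_eq ?_)
  congr 1
  refine integral_congr_ae (Filter.Eventually.of_forall fun x => ?_)
  change Real.exp (2 * ρ * g x) * _ = Real.exp (2 * ρ * g x) * _
  congr 1
  refine Finset.sum_congr rfl fun i _ => Finset.sum_congr rfl fun j _ => ?_
  unfold Uk sy
  by_cases hij : i = j
  · simp only [hij, if_true, Matrix.sub_apply, Matrix.add_apply, Matrix.smul_apply, smul_eq_mul,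
      Matrix.sum_apply]
    rfl
  · simp only [hij, if_false, Matrix.sub_apply, Matrix.add_apply, Matrix.zero_apply]
    rfl

end Vale.Agent.P088.S4.H870

end
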