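import Vale.Agent.P088.R2.H870.XE

/-!
# P088, stage 4, row X-GE: the Korn inequality with a cut-off
-/

open MeasureTheory Set
open scoped ContDiff Matrix

noncomputable section

namespace Vale.Agent.P088.S4.H870

open Vale.Agent.P088.LR Vale.Agent.P088.LR.U Vale.Agent.P088.LR.H158
open Vale.Agent.P088.HY (VV ipm tfp)
open Vale.Agent.P088.PJ
open Vale.Agent.P088.PJ.H561 (fn fn_nonneg fn_sq fn_mul fn_add fn_sub fn_neg fn_smul fn_zero fn_sum
  fn_le entry_le)
open Vale.Agent.P088.PJ.H341 (hd sy SD tfC_add tf_Z re_tr_tf coef_near ipm_ge korn_err cl_mono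
  cl_sup Uk sm_Uk sm_pdm sm_sm sm_add sm_sub sm_sum cont_nq nq_add nq_smul nq_sub nq_zero
  nq_nonneg)

variable {n N : ℕ}

/-- The product with the cut-off. -/
def cu (χ : V n → ℝ) (u : Fin n → MC n N) (j : Fin n) : MC n N := fun x => (χ x : ℂ) • u j x

theorem sm_cu {χ : V n → ℝ} (hχ : ContDiff ℝ ∞ χ) {u : Fin n → MC n N} (hu : ∀ j, SmC (u j))
    (j : Fin n) : SmC (cu χ u j) := sm_sm hχ (hu j)

section pt

variable {χ : V n → ℝ} {u : Fin n → MC n N} {x : V n} {κ : ℝ}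

theorem cu_pd (hχ : ContDiff ℝ ∞ χ) (hu : ∀ j, SmC (u j)) (i j : Fin n) (x : V n) :
    pdm i (cu χ u j) x = ((pd i χ x : ℝ) : ℂ) • u j x + (χ x : ℂ) • pdm i (u j) x :=
  pdm_smulR hχ (hu j) i x

theorem cu_d0 (x : V n) : d0 (cu χ u) x = χ x ^ 2 * d0 u x := by
  unfold d0 cu
  rw [Finset.mul_sum]
  refine Finset.sum_congr rfl fun j _ => ?_
  rw [nq_smul, Complex.norm_real, Real.norm_eq_abs, sq_abs]

theorem cu_d1 (hχ : ContDiff ℝ ∞ χ) (hu : ∀ j, SmC (u j)) (hk : ∀ i, |pd i χ x| ≤ κ) :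
    χ x ^ 2 * d1 u x ≤ 2 * d1 (cu χ u) x + 2 * n * κ ^ 2 * d0 u x := by
  have h1 : ∀ j i, χ x ^ 2 * nq (pdm i (u j) x) ≤ 2 * nq (pdm i (cu χ u j) x) +
      2 * κ ^ 2 * nq (u j x) := by
    intro j i
    have e : (χ x : ℂ) • pdm i (u j) x = pdm i (cu χ u j) x - ((pd i χ x : ℝ) : ℂ) • u j x := by
      rw [cu_pd hχ hu]
      abel
    have e1 : χ x ^ 2 * nq (pdm i (u j) x) = nq ((χ x : ℂ) • pdm i (u j) x) := by
      rw [nq_smul, Complex.norm_real, Real.norm_eq_abs, sq_abs]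
    rw [e1, e]
    refine (nq_sub _ _).trans ?_
    have h2 : nq (((pd i χ x : ℝ) : ℂ) • u j x) ≤ κ ^ 2 * nq (u j x) := by
      rw [nq_smul, Complex.norm_real, Real.norm_eq_abs]
      exact mul_le_mul_of_nonneg_right (pow_le_pow_left₀ (abs_nonneg _) (hk i) 2) (nq_nonneg _)
    linarith
  have h2 : χ x ^ 2 * d1 u x = ∑ j, ∑ i, χ x ^ 2 * nq (pdm i (u j) x) := by
    unfold d1
    simp only [Finset.mul_sum]
  rw [h2]
  calc _ ≤ ∑ j, ∑ i, (2 * nq (pdm i (cu χ u j) x) + 2 * κ ^ 2 * nq (u j x)) :=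
        Finset.sum_le_sum fun j _ => Finset.sum_le_sum fun i _ => h1 j i
    _ = _ := by
        unfold d1 d0
        simp only [Finset.sum_add_distrib, ← Finset.mul_sum, Finset.sum_const, Finset.card_univ,
          Fintype.card_fin, nsmul_eq_mul]
        ring

theorem cu_Uk (hn : 1 ≤ n) (hχ : ContDiff ℝ ∞ χ) (hu : ∀ j, SmC (u j)) (hκ : 0 ≤ κ)
    (hk : ∀ i, |pd i χ x| ≤ κ) :
    tn (Uk (cu χ u)) x ≤ 2 * (χ x ^ 2 * tn (Uk u) x) + 32 * n ^ 3 * κ ^ 2 * d0 u x := by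
  have hn0 : (1 : ℝ) ≤ n := by exact_mod_cast hn
  have hb : ∀ i j, fn (((pd i χ x : ℝ) : ℂ) • u j x) ≤ κ * fn (u j x) := by
    intro i j
    rw [fn_smulR]
    exact mul_le_mul_of_nonneg_right (hk i) (fn_nonneg _)
  have h1 : ∀ i j, nq (Uk (cu χ u) i j x) ≤ 2 * (χ x ^ 2 * nq (Uk u i j x)) +
      32 * n * κ ^ 2 * d0 u x := by
    intro i j
    set k : Matrix (Fin N) (Fin N) ℂ := ((pd i χ x : ℝ) : ℂ) • u j x + ((pd j χ x : ℝ) : ℂ) • u i x
      - (if i = j then (2 / n : ℂ) • ∑ l, ((pd l χ x : ℝ) : ℂ) • u l x else 0) with hk'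
    have e : Uk (cu χ u) i j x = (χ x : ℂ) • Uk u i j x + k := by
      unfold Uk sy
      simp only [cu_pd hχ hu]
      rw [hk']
      by_cases hij : i = j
      · simp only [hij, if_true, Finset.sum_add_distrib, ← Finset.smul_sum]
        ext a b
        simp only [Matrix.sub_apply, Matrix.add_apply, Matrix.smul_apply, smul_eq_mul]
        ring
      · simp only [hij, if_false, sub_zero, smul_add]
        abel
    have h2 : fn k ≤ 4 * κ * dn u x := by
      have a1 : fn (((pd i χ x : ℝ) : ℂ) • u j x) ≤ κ * dn u x :=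
        (hb i j).trans (mul_le_mul_of_nonneg_left (dn_term u x j) hκ)
      have a2 : fn (((pd j χ x : ℝ) : ℂ) • u i x) ≤ κ * dn u x :=
        (hb j i).trans (mul_le_mul_of_nonneg_left (dn_term u x i) hκ)
      have a3 : fn (if i = j then (2 / n : ℂ) • ∑ l, ((pd l χ x : ℝ) : ℂ) • u l x else 0) ≤
          2 * (κ * dn u x) := by
        split_ifs
        · rw [fn_smul]
          have b1 : ‖(2 / n : ℂ)‖ ≤ 2 := by
            rw [norm_div, Complex.norm_natCast]
            have : ‖(2 : ℂ)‖ = 2 := by norm_num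
            rw [this, div_le_iff₀ (by linarith)]
            linarith
          have b2 : fn (∑ l, ((pd l χ x : ℝ) : ℂ) • u l x) ≤ κ * dn u x := by
            refine (fn_sum _ _).trans ?_
            unfold dn
            rw [Finset.mul_sum]
            exact Finset.sum_le_sum fun l _ => hb l l
          exact mul_le_mul b1 b2 (fn_nonneg _) (by norm_num)
        · rw [fn_zero]
          have := dn_nonneg u x
          positivity
      rw [hk']
      refine (fn_sub _ _).trans ((add_le_add (fn_add _ _) le_rfl).trans ?_)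
      linarith
    have h3 : nq k ≤ 16 * n * κ ^ 2 * d0 u x := by
      rw [← fn_sq]
      calc fn k ^ 2 ≤ (4 * κ * dn u x) ^ 2 := pow_le_pow_left₀ (fn_nonneg _) h2 2
        _ = 16 * κ ^ 2 * dn u x ^ 2 := by ring
        _ ≤ 16 * κ ^ 2 * (n * d0 u x) := by
          have := dn_sq u x
          gcongr
        _ = _ := by ring
    rw [e]
    refine (nq_add _ _).trans ?_
    rw [nq_smul, Complex.norm_real, Real.norm_eq_abs, sq_abs]
    linarith
  calc tn (Uk (cu χ u)) x ≤ ∑ i, ∑ j, (2 * (χ x ^ 2 * nq (Uk u i j x)) +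
        32 * n * κ ^ 2 * d0 u x) :=
        Finset.sum_le_sum fun i _ => Finset.sum_le_sum fun j _ => h1 i j
    _ = _ := by
        unfold tn
        simp only [Finset.sum_add_distrib, ← Finset.mul_sum, Finset.sum_const, Finset.card_univ,
          Fintype.card_fin, nsmul_eq_mul]
        ring

end pt

theorem cont_d0 {u : Fin n → MC n N} (hu : ∀ j, SmC (u j)) : Continuous (d0 u) := by
  unfold d0
  exact continuous_finsetSum _ fun a _ => cont_nq (hu a)

theorem cont_d1 {u : Fin n → MC n N} (hu : ∀ j, SmC (u j)) : Continuous (d1 u) := by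
  unfold d1
  exact continuous_finsetSum _ fun a _ => continuous_finsetSum _ fun i _ =>
    cont_nq (sm_pdm (hu a) i)

theorem cont_tn {H : Fin n → Fin n → MC n N} (hH : ∀ i j, SmC (H i j)) : Continuous (tn H) := by
  unfold tn
  exact continuous_finsetSum _ fun i _ => continuous_finsetSum _ fun j _ => cont_nq (hH i j)

/-- (KO) for matrices, with a cut-off. -/
theorem korn_cut (hKO : RowXKO) (hn : 3 ≤ n) (N : ℕ) {M c₀ : ℝ} (hM : 0 < M) (hc : 0 < c₀) :
    ∃ C ρ₀ : ℝ, 0 < C ∧ 1 ≤ ρ₀ ∧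
    ∀ O : Set (V n), IsOpen O → ∀ g : V n → ℝ, ContDiff ℝ ∞ g → (∀ x ∈ O, ∀ i, |pd i g x| ≤ M) →
    (∀ x ∈ O, ∀ i j, |pd i (pd j g) x| ≤ M) → (∀ x ∈ O, c₀ ≤ ∑ i, pd i g x ^ 2) →
    ∀ ρ : ℝ, ρ₀ ≤ ρ → ∀ (B : Set (V n)) (χ χ₁ χ₂ : V n → ℝ), CC O B ρ χ χ₁ χ₂ →
    ∀ u : Fin n → MC n N, (∀ i, SmC (u i)) →
    wI χ g ρ (d1 u) + ρ ^ 2 * wI χ g ρ (d0 u) ≤
      C * (wI χ g ρ (tn (Uk u)) + ρ ^ 2 * wB B g ρ (d0 u)) := by
  classical
  obtain ⟨C, ρ₀, hC, hρ₀, hk⟩ := korn_mat hKO hn N hM hc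
  have hn0 : (0 : ℝ) ≤ n := Nat.cast_nonneg n
  refine ⟨4 * C + (64 * n ^ 3 * C + 2 * n), ρ₀, by positivity, hρ₀, ?_⟩
  intro O hO g hg g1 g2 g3 ρ hρ B χ χ₁ χ₂ hcc u hu
  have hcs := cc_cs hcc
  have hχc : Continuous χ := hcc.s0.continuous
  have hgc : Continuous g := hg.continuous
  have hρ1 : 0 ≤ ρ := by linarith
  have cE : Continuous fun x => Real.exp (2 * ρ * g x) :=
    Real.continuous_exp.comp (continuous_const.mul hgc)
  have hV := sm_cu hcc.s0 hu
  have hoff : ∀ i, ∀ x ∉ tsupport χ, cu χ u i x = 0 := by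
    intro i x hx
    unfold cu
    rw [image_eq_zero_of_notMem_tsupport hx]
    simp
  have h1 := hk O hO g hg g1 g2 g3 ρ hρ (cu χ u) hV (tsupport χ) hcs (cc_O hcc) hoff
  -- the cut-off
  set κ : V n → ℝ := fun x => if x ∈ B then ρ else 0 with hκ
  have hκ0 : ∀ x, 0 ≤ κ x := by
    intro x
    rw [hκ]
    dsimp only
    split_ifs
    · exact hρ1
    · exact le_rfl
  have hκb : ∀ x i, |pd i χ x| ≤ κ x := by
    intro x i
    rw [hκ]
    dsimp only
    split_ifs with hx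
    · exact hcc.d0 i x
    · rw [(hcc.zB x hx i).1]
      simp
  have hκi : ∀ x, κ x ^ 2 * (Real.exp (2 * ρ * g x) * d0 u x) =
      ρ ^ 2 * B.indicator (fun x => Real.exp (2 * ρ * g x) * d0 u x) x := by
    intro x
    rw [hκ]
    dsimp only
    by_cases hx : x ∈ B
    · rw [if_pos hx, Set.indicator_of_mem hx]
    · rw [if_neg hx, Set.indicator_of_notMem hx]
      ring
  have hpdχ : ∀ i, ∀ x ∉ tsupport χ, pd i χ x = 0 := by
    intro i x hx
    exact (hcc.zB x (fun h => hx (hcc.bB h)) i).1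
  have hpdm : ∀ i j, ∀ x ∉ tsupport χ, pdm i (cu χ u j) x = 0 := by
    intro i j x hx
    rw [cu_pd hcc.s0 hu, hpdχ i x hx, image_eq_zero_of_notMem_tsupport hx]
    simp
  have intK : ∀ {f : V n → ℝ}, Continuous f → (∀ x ∉ tsupport χ, f x = 0) → Integrable f := by
    intro f hf h0
    refine hf.integrable_of_hasCompactSupport ?_
    refine HasCompactSupport.of_support_subset_isCompact hcs fun x hx => ?_
    by_contra h
    exact hx (h0 x h)
  have iB : Integrable (B.indicator fun x => Real.exp (2 * ρ * g x) * d0 u x) := by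
    rw [integrable_indicator_iff hcc.mB]
    exact wB_int hcc.mB hcs hcc.bB hgc (cont_d0 hu) ρ
  have eB : ∫ x, B.indicator (fun x => Real.exp (2 * ρ * g x) * d0 u x) x = wB B g ρ (d0 u) := by
    rw [integral_indicator hcc.mB]
    rfl
  have i1 : Integrable fun x => Real.exp (2 * ρ * g x) * (d1 (cu χ u) x + ρ ^ 2 * d0 (cu χ u) x) := by
    refine intK (cE.mul ((cont_d1 hV).add (continuous_const.mul (cont_d0 hV)))) fun x hx => ?_
    unfold d1 d0
    simp [hpdm _ _ x hx, hoff _ x hx, nq_zero]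
  have i2 : Integrable fun x => Real.exp (2 * ρ * g x) * tn (Uk (cu χ u)) x := by
    refine intK (cE.mul (cont_tn (sm_Uk hV))) fun x hx => ?_
    have : ∀ i j, Uk (cu χ u) i j x = 0 := by
      intro i j
      unfold Uk sy
      simp [hpdm _ _ x hx]
    unfold tn
    simp [this, nq_zero]
  have j1 := wI_int hχc hcs hgc (cont_d1 hu) ρ
  have j0 := wI_int hχc hcs hgc (cont_d0 hu) ρ
  have jU := wI_int hχc hcs hgc (cont_tn (sm_Uk hu)) ρ
  -- lower bound
  have low : wI χ g ρ (d1 u) + 2 * ρ ^ 2 * wI χ g ρ (d0 u) ≤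
      2 * (∫ x, Real.exp (2 * ρ * g x) * (d1 (cu χ u) x + ρ ^ 2 * d0 (cu χ u) x)) +
        2 * n * ρ ^ 2 * wB B g ρ (d0 u) := by
    rw [← eB]
    unfold wI
    rw [← integral_const_mul, ← integral_const_mul, ← integral_const_mul,
      ← integral_add j1 (j0.const_mul _), ← integral_add (i1.const_mul _) (iB.const_mul _)]
    refine integral_mono (j1.add (j0.const_mul _)) ((i1.const_mul _).add (iB.const_mul _))
      fun x => ?_
    dsimp only
    have k1 := cu_d1 hcc.s0 hu (hκb x)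
    have k2 := cu_d0 (χ := χ) (u := u) x
    have k3 := hκi x
    have k4 : (0 : ℝ) < Real.exp (2 * ρ * g x) := Real.exp_pos _
    have k5 := mul_le_mul_of_nonneg_left k1 k4.le
    have k6 : 2 * n * ρ ^ 2 * B.indicator (fun x => Real.exp (2 * ρ * g x) * d0 u x) x =
        Real.exp (2 * ρ * g x) * (2 * n * κ x ^ 2 * d0 u x) := by
      calc _ = 2 * n * (ρ ^ 2 * B.indicator (fun x => Real.exp (2 * ρ * g x) * d0 u x) x) := by ring
        _ = _ := by rw [← k3]; ring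
    rw [k6, k2]
    linarith
  have upp : ∫ x, Real.exp (2 * ρ * g x) * tn (Uk (cu χ u)) x ≤
      2 * wI χ g ρ (tn (Uk u)) + 32 * n ^ 3 * ρ ^ 2 * wB B g ρ (d0 u) := by
    rw [← eB]
    unfold wI
    rw [← integral_const_mul, ← integral_const_mul,
      ← integral_add (jU.const_mul _) (iB.const_mul _)]
    refine integral_mono i2 ((jU.const_mul _).add (iB.const_mul _)) fun x => ?_
    dsimp only
    have k1 := cu_Uk (by omega : 1 ≤ n) hcc.s0 hu (hκ0 x) (hκb x)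
    have k3 := hκi x
    have k4 : (0 : ℝ) < Real.exp (2 * ρ * g x) := Real.exp_pos _
    have k5 := mul_le_mul_of_nonneg_left k1 k4.le
    have k6 : 32 * n ^ 3 * ρ ^ 2 * B.indicator (fun x => Real.exp (2 * ρ * g x) * d0 u x) x =
        Real.exp (2 * ρ * g x) * (32 * n ^ 3 * κ x ^ 2 * d0 u x) := by
      calc _ = 32 * n ^ 3 * (ρ ^ 2 * B.indicator (fun x => Real.exp (2 * ρ * g x) * d0 u x) x) := by
            ring
        _ = _ := by rw [← k3]; ring
    rw [k6]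
    linarith
  have w1 : 0 ≤ wI χ g ρ (tn (Uk u)) := wI_nonneg (fun x => tn_nonneg _ x) ρ
  have w2 : 0 ≤ wB B g ρ (d0 u) := wB_nonneg (fun x => d0_nonneg _ x) ρ
  have w3 : 0 ≤ wI χ g ρ (d0 u) := wI_nonneg (fun x => d0_nonneg _ x) ρ
  have h2 := mul_le_mul_of_nonneg_left upp hC.le
  have h3 : 0 ≤ ρ ^ 2 * wI χ g ρ (d0 u) := by positivity
  have h4 : 0 ≤ ρ ^ 2 * wB B g ρ (d0 u) := by positivity
  have h5 : 0 ≤ (64 * n ^ 3 * C + 2 * n) * wI χ g ρ (tn (Uk u)) := by positivity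
  have h6 : 0 ≤ 4 * C * (ρ ^ 2 * wB B g ρ (d0 u)) := by positivity
  calc wI χ g ρ (d1 u) + ρ ^ 2 * wI χ g ρ (d0 u)
      ≤ wI χ g ρ (d1 u) + 2 * ρ ^ 2 * wI χ g ρ (d0 u) := by linarith
    _ ≤ 2 * (C * (2 * wI χ g ρ (tn (Uk u)) + 32 * n ^ 3 * ρ ^ 2 * wB B g ρ (d0 u))) +
        2 * n * ρ ^ 2 * wB B g ρ (d0 u) := by linarith
    _ = 4 * C * wI χ g ρ (tn (Uk u)) + (64 * n ^ 3 * C + 2 * n) * (ρ ^ 2 * wB B g ρ (d0 u)) := by
        ring
    _ ≤ _ := by linarith

end Vale.Agent.P088.S4.H870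

end
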