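import Vale.Agent.P088.R2.H870.XF

/-!
# P088, stage 4, row X-GE: smoothness and the arithmetic
-/

open MeasureTheory Set
open scoped ContDiff Matrix

noncomputable section

namespace Vale.Agent.P088.S4.H870

open Vale.Agent.P088.LR Vale.Agent.P088.LR.U Vale.Agent.P088.LR.H158
open Vale.Agent.P088.HY (VV ipm tfp)
open Vale.Agent.P088.PJ
open Vale.Agent.P088.PJ.H561 (fn fn_nonneg fn_sq fn_mul fn_add fn_sub fn_neg fn_smul fn_zero fn_sum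
  fn_le entry_le)
open Vale.Agent.P088.PJ.H341 (hd sy SD tfC_add tf_Z re_tr_tf coef_near ipm_ge korn_err cl_mono
  cl_sup Uk sm_Uk sm_pdm sm_sm sm_add sm_sub sm_sum cont_nq nq_add nq_smul nq_sub nq_zero
  nq_nonneg)

variable {n N : ℕ}

/-! ## Monotonicity -/

theorem Da_mono {k k' : ℕ} {δ δ' : ℝ} {O : Set (V n)} {s : MF n} {P : MC n N} {G : Fin n → MC n N}
    (h : Da k δ O s P G) (hk : k' ≤ k) (hδ : δ ≤ δ') : Da k' δ' O s P G where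
  ss := h.ss
  sy := h.sy
  sP := h.sP
  hP := h.hP
  sG := h.sG
  hG := h.hG
  cs := fun i j => cl_mono (h.cs i j) hk hδ
  cP := fun a b => cl_mono (h.cP a b) hk hδ
  cG := fun i a b => cl_mono (h.cG i a b) hk hδ
  dq := h.dq
  pe := h.pe

theorem RL_mono {k k' : ℕ} {δ δ' : ℝ} {O K : Set (V n)} {j₀ : Fin N} {s₁ s₂ : MF n}
    {P₁ P₂ : MC n N} {G₁ G₂ β Y D : Fin n → MC n N}
    (h : RL k δ O K j₀ s₁ s₂ P₁ P₂ G₁ G₂ β Y D) (hk : k' ≤ k) (hδ : δ ≤ δ') :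
    RL k' δ' O K j₀ s₁ s₂ P₁ P₂ G₁ G₂ β Y D where
  op := h.op
  cl := h.cl
  d₁ := Da_mono h.d₁ hk hδ
  d₂ := Da_mono h.d₂ hk hδ
  sβ := h.sβ
  cβ := fun i a b => cl_mono (h.cβ i a b) hk hδ
  eβ := h.eβ
  LY := h.LY
  os := h.os
  oP := h.oP
  oG := h.oG
  oD := h.oD
  sY := h.sY
  sD := h.sD
  cY := fun a i j => cl_mono (h.cY a i j) hk hδ
  cD := fun a i j => cl_mono (h.cD a i j) hk hδ
  tD := h.tD
  hY := h.hY
  gi := h.gi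

theorem IG_mono {k k' : ℕ} {δ δ' : ℝ} {Y : Fin n → MC n N} {Γ : Fin n → Fin n → MC n N}
    (h : IG k δ Y Γ) (hk : k' ≤ k) (hδ : δ ≤ δ') : IG k' δ' Y Γ where
  sm := h.sm
  li := h.li
  ri := h.ri
  cl := fun a b i j => cl_mono (h.cl a b i j) hk hδ

section data

variable {k : ℕ} {δ : ℝ} {O K : Set (V n)} {j₀ : Fin N} {s₁ s₂ τ : MF n}
  {P₁ P₂ : MC n N} {G₁ G₂ β Y D : Fin n → MC n N} {Γ : Fin n → Fin n → MC n N}

/-- The pointwise bounds. -/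
theorem Nb_of (h : RL k δ O K j₀ s₁ s₂ P₁ P₂ G₁ G₂ β Y D) (hI : IG k δ Y Γ) (hk : 1 ≤ k)
    (hτ : ∀ x, s₁ x * τ x = 1) (h0 : 0 ≤ δ) (h1 : δ ≤ 1) (hδn : 6 * n * δ ≤ 1)
    (hi : ∀ x, fn ((P₂ x)⁻¹) ≤ 2 * N) (x : V n) : Nb δ s₁ s₂ τ P₁ P₂ G₂ β Γ x where
  d0 := h0
  d1 := h1
  a1 := s_near h.d₁.cs x
  a2 := s_near h.d₂.cs x
  e1 := fun l i j => s_der hk h.d₁.ss h.d₁.cs x l i j
  e2 := fun l i j => s_der hk h.d₂.ss h.d₂.cs x l i j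
  t := fun i j => by
    refine tau_two h0 ?_ (s_near h.d₁.cs x) (hτ x) i j
    have hn : (0 : ℝ) ≤ n := Nat.cast_nonneg n
    nlinarith
  p1 := fn_near h0 h.d₁.cP x
  p2 := fn_near h0 h.d₂.cP x
  q1 := fun i => by
    have hs : SmC fun x => P₁ x - 1 := sm_sub h.d₁.sP fun a b => contDiff_const
    have := fn_near_pd hk h0 hs h.d₁.cP i x
    rwa [pdm_subC] at this
  q2 := fun i => by
    have hs : SmC fun x => P₂ x - 1 := sm_sub h.d₂.sP fun a b => contDiff_const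
    have := fn_near_pd hk h0 hs h.d₂.cP i x
    rwa [pdm_subC] at this
  i2 := hi x
  g2 := fun i => fn_near h0 (h.d₂.cG i) x
  be := fun i => fn_near h0 (h.cβ i) x
  c0 := fun a b => fn_near h0 (hI.cl a b) x
  c1 := fun i a b => by
    have hs : SmC fun x => Γ a b x - (if a = b then 1 else 0 : Matrix (Fin N) (Fin N) ℂ) :=
      sm_sub (hI.sm a b) fun c d => contDiff_const
    have := fn_near_pd hk h0 hs (hI.cl a b) i x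
    rwa [pdm_subC] at this

/-! ## Smoothness -/

theorem sm_mbl (h1 : SmM s₂) (h2 : SmM τ) (b l : Fin n) : ContDiff ℝ ∞ (mbl s₂ τ b l) := by
  unfold mbl
  refine ContDiff.div_const (ContDiff.add (ContDiff.mul ?_ contDiff_const)
    (contDiff_const.mul ?_)) _
  · exact ContDiff.sum fun i _ => ContDiff.sum fun j _ => (h1 i j).mul (h2 i j)
  · exact ContDiff.sum fun i _ => (h1 l i).mul (h2 i b)

theorem sm_cs {c : ℂ} {U : MC n N} (hU : SmC U) : SmC fun x => c • U x := fun a b =>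
  contDiff_const.mul (hU a b)

theorem sm_kp {s : MF n} {G : Fin n → MC n N} (hs : SmM s) (hG : ∀ i, SmC (G i)) (j : Fin n) :
    SmC (kp s G j) := by
  unfold kp
  exact sm_sum fun l _ => sm_sm (hs j l) (hG l)

theorem sm_bR {s : MF n} {P : MC n N} {G : Fin n → MC n N} (hs : SmM s) (hP : SmC P)
    (hG : ∀ i, SmC (G i)) (hi : SmC fun x => (P x)⁻¹) (j : Fin n) : SmC (bR s P G j) := by
  unfold bR
  exact SmC_mul (sm_sub (sm_sum fun i _ => sm_pdm (sm_sm (hs i j) hP) i) (sm_kp hs hG j)) hi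

theorem sm_VR (h1 : SmM s₁) (h2 : SmM s₂) (ht : SmM τ) (hP1 : SmC P₁) (hP2 : SmC P₂)
    (hG : ∀ i, SmC (G₂ i)) (hβ : ∀ i, SmC (β i)) (hΓ : ∀ a b, SmC (Γ a b)) (hD : ∀ a, SmC (D a))
    (hi : SmC fun x => (P₂ x)⁻¹) (j b : Fin n) : SmC (VR s₁ s₂ τ P₁ P₂ G₂ β Γ D j b) := by
  have hB := fun b => sm_Db hP2 hΓ hD b
  have hE : ∀ l, SmC fun x => ∑ c, (mbl s₂ τ c l x : ℂ) • Db P₂ Γ D c x := fun l =>
    sm_sum fun c _ => sm_sm (sm_mbl h2 ht c l) (hB c)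
  unfold VR
  refine sm_sub (sm_sub (sm_sub (sm_add (PJ.H341.sm_Zt h1 h2 hP1 hP2 j b) ?_) ?_) ?_) ?_
  · exact sm_cs (sm_sum fun i _ => sm_pdm (sm_sm (h2 i j) (hB b)) i)
  · exact SmC_mul (sm_bR h2 hP2 hG hi j) (hB b)
  · exact sm_sum fun l _ => sm_sm (contDiff_pd (h1 j b) l) (hE l)
  · exact SmC_mul (hE b) (hβ j)

theorem sm_VS (h1 : SmM s₁) (h2 : SmM s₂) (ht : SmM τ) (hP1 : SmC P₁) (hP2 : SmC P₂)
    (hG : ∀ i, SmC (G₂ i)) (hβ : ∀ i, SmC (β i)) (hΓ : ∀ a b, SmC (Γ a b)) (hD : ∀ a, SmC (D a))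
    (hi : SmC fun x => (P₂ x)⁻¹) (j b : Fin n) : SmC (VS s₁ s₂ τ P₁ P₂ G₂ β Γ D j b) := by
  unfold VS
  exact sm_cs (sm_add (sm_VR h1 h2 ht hP1 hP2 hG hβ hΓ hD hi j b)
    (sm_VR h1 h2 ht hP1 hP2 hG hβ hΓ hD hi b j))

theorem ph_eq : S4.ph s₁ s₂ = PJ.H341.ph s₁ s₂ := by
  funext x
  unfold S4.ph PJ.H341.ph ipm hd
  simp only [Matrix.sub_apply, sq]

theorem cont_h0 (h1 : SmM s₁) (h2 : SmM s₂) (h0 : ∀ x, ipm s₁ s₁ x ≠ 0) :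
    Continuous (S4.h0 s₁ s₂) := by
  have e : S4.h0 s₁ s₂ = PJ.H341.hq s₁ s₂ := funext fun x => h0_eq s₁ s₂ x
  rw [e]
  exact PJ.H341.cont_hq h1 h2 h0

theorem cont_hh (h1 : SmM s₁) (h2 : SmM s₂) : Continuous (hh s₁ s₂) := by
  unfold hh
  exact continuous_finsetSum _ fun i _ => continuous_finsetSum _ fun j _ =>
    (((h2 i j).continuous.sub (h1 i j).continuous).pow 2)

theorem cont_ps (h1 : SmM s₁) (h2 : SmM s₂) (h0 : ∀ x, ipm s₁ s₁ x ≠ 0) (hP1 : SmC P₁)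
    (hP2 : SmC P₂) (j₀ : Fin N) : Continuous (ps j₀ s₁ s₂ P₁ P₂) := by
  unfold ps
  rw [ph_eq]
  exact ((PJ.H341.sm_ph h1 h2 h0).continuous.mul
    (Complex.continuous_re.comp (hP2 j₀ j₀).continuous)).add
    (Complex.continuous_re.comp (sm_sub hP2 hP1 j₀ j₀).continuous)

end data

/-! ## The arithmetic -/

/-- The absorption of `D`. -/
theorem ar1 {C δ ρ T W X0 X1 : ℝ} (hC : 0 ≤ C) (hX1 : 0 ≤ X1) (hX0 : 0 ≤ X0)
    (hδ : C * δ ^ 2 ≤ 1 / 2) (hρ : 2 * C ≤ ρ ^ 2)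
    (h : X1 + ρ ^ 2 * X0 ≤ C * (T + δ ^ 2 * X1 + X0 + ρ ^ 2 * W)) :
    X1 + ρ ^ 2 * X0 ≤ 2 * C * (T + ρ ^ 2 * W) := by
  have h1 : C * δ ^ 2 * X1 ≤ 1 / 2 * X1 := mul_le_mul_of_nonneg_right hδ hX1
  have h2 : 2 * C * X0 ≤ ρ ^ 2 * X0 := mul_le_mul_of_nonneg_right hρ hX0
  linarith

/-- The final absorption. -/
theorem ar2 {C1 C2 q Ct Cm ρ T W X0 X1 H0 HH Mm Ps : ℝ} (hC1 : 0 ≤ C1) (hC2 : 0 ≤ C2)
    (hq : 0 ≤ q) (hCt : 0 ≤ Ct) (hCm : 0 ≤ Cm) (hρ : 1 ≤ ρ) (hT : 0 ≤ T) (hW : 0 ≤ W)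
    (hX0 : 0 ≤ X0) (hX1 : 0 ≤ X1) (hHH : 0 ≤ HH) (hM0 : 0 ≤ Mm)
    (hE : 2 * (q * Ct + (q + 1) * Cm) ≤ ρ)
    (hX : X1 + ρ ^ 2 * X0 ≤ 2 * C1 * (T + ρ ^ 2 * W)) (hH : H0 ≤ C2 * (T + ρ ^ 2 * W))
    (hP : Ps ≤ Ct * ρ * (H0 + X1) + Ct / ρ * (HH + Mm + X0) + Ct * ρ ^ 6 * W)
    (hM : Mm ≤ Cm / ρ * (HH + X0 + X1) + Cm * ρ ^ 6 * W) (hHm : HH ≤ 2 * H0 + q * (Ps + Mm)) :
    HH + Mm + X1 + ρ ^ 2 * X0 ≤
      (4 * C2 + 2 * (q * Ct) * (C2 + 2 * C1) + 4 * C1 + 2 * (q * Ct + (q + 1) * Cm)) * ρ * T +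
      (4 * C2 + 2 * (q * Ct) * (C2 + 2 * C1) + 4 * C1 + 2 * (q * Ct + (q + 1) * Cm)) * ρ ^ 6 * W := by
  have hρ0 : 0 < ρ := by linarith
  set r := 1 / ρ with hr
  have hr0 : 0 ≤ r := by positivity
  have hrρ : ρ * r = 1 := by rw [hr]; field_simp
  set E := q * Ct + (q + 1) * Cm with hEd
  have hE0 : 0 ≤ E := by positivity
  have hEr : E * r ≤ 1 / 2 := by
    have := mul_le_mul_of_nonneg_right hE hr0
    linarith
  rw [div_eq_mul_one_div, ← hr] at hP hM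
  set S := HH + Mm with hS
  set Z := T + ρ ^ 2 * W with hZ
  have hZ0 : 0 ≤ Z := by positivity
  have hρ2 : 1 ≤ ρ ^ 2 := one_le_pow₀ hρ
  have hX01 : X0 ≤ ρ ^ 2 * X0 := by nlinarith
  have p1 : q * Ps ≤ q * (Ct * ρ * (H0 + X1) + Ct * r * (S + X0) + Ct * ρ ^ 6 * W) :=
    mul_le_mul_of_nonneg_left hP hq
  have p2 : (q + 1) * Mm ≤ (q + 1) * (Cm * r * (HH + X0 + X1) + Cm * ρ ^ 6 * W) :=
    mul_le_mul_of_nonneg_left hM (by linarith)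
  have p3 : q * Ct * r * (S + X0) ≤ q * Ct * r * (S + X0 + X1) := by
    refine mul_le_mul_of_nonneg_left (by linarith) (by positivity)
  have p4 : (q + 1) * Cm * r * (HH + X0 + X1) ≤ (q + 1) * Cm * r * (S + X0 + X1) := by
    refine mul_le_mul_of_nonneg_left (by linarith) (by positivity)
  have p5 : E * r * (S + X0 + X1) ≤ 1 / 2 * (S + X0 + X1) :=
    mul_le_mul_of_nonneg_right hEr (by positivity)
  have p6 : q * Ct * r * (S + X0 + X1) + (q + 1) * Cm * r * (S + X0 + X1) =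
      E * r * (S + X0 + X1) := by rw [hEd]; ring
  have p7 : q * (Ct * ρ ^ 6 * W) + (q + 1) * (Cm * ρ ^ 6 * W) = E * ρ ^ 6 * W := by
    rw [hEd]; ring
  have p8 : S ≤ 2 * H0 + q * Ct * ρ * (H0 + X1) + 1 / 2 * (S + X0 + X1) + E * ρ ^ 6 * W := by
    linarith
  have hXZ : X0 + X1 ≤ 2 * C1 * Z := by linarith
  have hX1Z : X1 ≤ 2 * C1 * Z := by linarith
  have p9 : q * Ct * ρ * (H0 + X1) ≤ q * Ct * ρ * ((C2 + 2 * C1) * Z) :=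
    mul_le_mul_of_nonneg_left (by linarith) (by positivity)
  have p10 : S ≤ 4 * (C2 * Z) + 2 * (q * Ct * ρ * ((C2 + 2 * C1) * Z)) + 2 * C1 * Z +
      2 * (E * ρ ^ 6 * W) := by linarith
  have hZρ : Z ≤ ρ * Z := by nlinarith
  have q1 : C2 * Z ≤ C2 * (ρ * Z) := mul_le_mul_of_nonneg_left hZρ hC2
  have q2 : C1 * Z ≤ C1 * (ρ * Z) := mul_le_mul_of_nonneg_left hZρ hC1
  have p11 : S + (X1 + ρ ^ 2 * X0) ≤ (4 * C2 + 2 * (q * Ct) * (C2 + 2 * C1) + 4 * C1) * (ρ * Z) +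
      2 * (E * ρ ^ 6 * W) := by linarith
  have hρ3 : ρ ^ 3 ≤ ρ ^ 6 := pow_le_pow_right₀ hρ (by norm_num)
  have q3 : ρ * Z ≤ ρ * T + ρ ^ 6 * W := by
    have : ρ ^ 3 * W ≤ ρ ^ 6 * W := mul_le_mul_of_nonneg_right hρ3 hW
    rw [hZ]
    linarith
  set F := 4 * C2 + 2 * (q * Ct) * (C2 + 2 * C1) + 4 * C1 with hF
  have hF0 : 0 ≤ F := by positivity
  have q4 : F * (ρ * Z) ≤ F * (ρ * T + ρ ^ 6 * W) := mul_le_mul_of_nonneg_left q3 hF0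
  have q5 : 0 ≤ 2 * E * ρ * T := by positivity
  calc HH + Mm + X1 + ρ ^ 2 * X0 = S + (X1 + ρ ^ 2 * X0) := by rw [hS]; ring
    _ ≤ F * (ρ * T + ρ ^ 6 * W) + 2 * (E * ρ ^ 6 * W) := by linarith
    _ ≤ F * (ρ * T + ρ ^ 6 * W) + 2 * (E * ρ ^ 6 * W) + 2 * E * ρ * T := by linarith
    _ = _ := by ring

end Vale.Agent.P088.S4.H870

end
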