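import Vale.Agent.P088.R2.H870.XG

/-!
# P088, stage 4, row X-GE
-/

open MeasureTheory Set
open scoped ContDiff Matrix

noncomputable section

namespace Vale.Agent.P088.S4.H870

open Vale.Agent.P088.LR Vale.Agent.P088.LR.U Vale.Agent.P088.LR.H158
open Vale.Agent.P088.HY (VV ipm tfp)
open Vale.Agent.P088.PJ
open Vale.Agent.P088.PJ.H561 (fn fn_nonneg fn_sq fn_mul fn_add fn_sub fn_neg fn_smul fn_zero fn_sum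
  fn_le entry_le)
open Vale.Agent.P088.PJ.H341 (hd sy SD tfC_add tf_Z re_tr_tf coef_near ipm_ge korn_err cl_mono
  cl_sup Uk sm_Uk sm_pdm sm_sm sm_add sm_sub sm_sum cont_nq nq_add nq_smul nq_sub nq_zero
  nq_nonneg)

variable {n N : ℕ}

theorem wI_add3 {χ g : V n → ℝ} (hχ : Continuous χ) (hs : HasCompactSupport χ)
    (hg : Continuous g) {f h k : V n → ℝ} (hf : Continuous f) (hh : Continuous h)
    (hk : Continuous k) (ρ : ℝ) :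
    wI χ g ρ (fun x => f x + h x + k x) = wI χ g ρ f + wI χ g ρ h + wI χ g ρ k := by
  rw [wI_add hχ hs hg (f := fun x => f x + h x) (hf.add hh) hk, wI_add hχ hs hg hf hh]

theorem wI_add4 {χ g : V n → ℝ} (hχ : Continuous χ) (hs : HasCompactSupport χ)
    (hg : Continuous g) {f h k l : V n → ℝ} (hf : Continuous f) (hh : Continuous h)
    (hk : Continuous k) (hl : Continuous l) (ρ : ℝ) :
    wI χ g ρ (fun x => f x + h x + k x + l x) =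
      wI χ g ρ f + wI χ g ρ h + wI χ g ρ k + wI χ g ρ l := by
  rw [wI_add hχ hs hg (f := fun x => f x + h x + k x) ((hf.add hh).add hk) hl,
    wI_add3 hχ hs hg hf hh hk]

theorem ar0 {c6 c7 C ρ Q X0 X1 Y0 Y1 U Wb W : ℝ} (hc6 : 0 ≤ c6) (hc7 : 0 ≤ c7) (hC : 0 ≤ C)
    (hρ : 1 ≤ ρ) (hQ : 0 ≤ Q) (hW : 0 ≤ W) (hY0 : 0 ≤ Y0) (hY1 : 0 ≤ Y1)
    (hko : Y1 + ρ ^ 2 * Y0 ≤ C * (U + ρ ^ 2 * Wb)) (u1 : U ≤ c6 * Q) (u2 : X0 ≤ c7 * Y0)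
    (u3 : X1 ≤ c7 * (Y1 + Y0)) (u4 : Wb ≤ c7 * W) :
    X1 + ρ ^ 2 * X0 ≤ 2 * c7 * C * (c6 + c7) * (Q + ρ ^ 2 * W) := by
  have hρ2 : 1 ≤ ρ ^ 2 := one_le_pow₀ hρ
  have v1 : ρ ^ 2 * X0 ≤ ρ ^ 2 * (c7 * Y0) := mul_le_mul_of_nonneg_left u2 (by positivity)
  have v2 : Y0 ≤ ρ ^ 2 * Y0 := le_mul_of_one_le_left hY0 hρ2
  have v3 : c7 * Y0 ≤ c7 * (ρ ^ 2 * Y0) := mul_le_mul_of_nonneg_left v2 hc7
  have v4 : 0 ≤ c7 * Y1 := by positivity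
  have v5 : X1 + ρ ^ 2 * X0 ≤ 2 * c7 * (Y1 + ρ ^ 2 * Y0) := by linarith
  have v6 : Y1 + ρ ^ 2 * Y0 ≤ C * (c6 * Q + ρ ^ 2 * (c7 * W)) := by
    refine hko.trans (mul_le_mul_of_nonneg_left ?_ hC)
    exact add_le_add u1 (mul_le_mul_of_nonneg_left u4 (by positivity))
  have v7 : c6 * Q + ρ ^ 2 * (c7 * W) ≤ (c6 + c7) * (Q + ρ ^ 2 * W) := by
    have : 0 ≤ c7 * Q := by positivity
    have : 0 ≤ c6 * (ρ ^ 2 * W) := by positivity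
    linarith
  calc X1 + ρ ^ 2 * X0 ≤ 2 * c7 * (Y1 + ρ ^ 2 * Y0) := v5
    _ ≤ 2 * c7 * (C * ((c6 + c7) * (Q + ρ ^ 2 * W))) := by
      refine mul_le_mul_of_nonneg_left (v6.trans ?_) (by positivity)
      exact mul_le_mul_of_nonneg_left v7 hC
    _ = _ := by ring

theorem U0_cont {s₁ s₂ : MF n} {P₁ P₂ : MC n N} {D : Fin n → MC n N} (h1 : SmM s₁) (h2 : SmM s₂)
    (p1 : SmC P₁) (p2 : SmC P₂) (hD : ∀ a, SmC (D a)) : Continuous (U0 s₁ s₂ P₁ P₂ D) :=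
  (((cont_hh h1 h2).add (cont_nq (sm_sub p2 p1))).add (cont_d0 hD)).add (cont_d1 hD)

theorem hh_nonneg (s₁ s₂ : MF n) (x : V n) : 0 ≤ hh s₁ s₂ x :=
  Finset.sum_nonneg fun _ _ => Finset.sum_nonneg fun _ _ => sq_nonneg _

theorem d0_U0 (s₁ s₂ : MF n) (P₁ P₂ : MC n N) (D : Fin n → MC n N) (x : V n) :
    d0 D x ≤ U0 s₁ s₂ P₁ P₂ D x := by
  have a1 := hh_nonneg s₁ s₂ x
  have a2 := nq_nonneg (P₂ x - P₁ x)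
  have a3 := d1_nonneg D x
  unfold U0
  linarith

theorem U0_nonneg (s₁ s₂ : MF n) (P₁ P₂ : MC n N) (D : Fin n → MC n N) (x : V n) :
    0 ≤ U0 s₁ s₂ P₁ P₂ D x := (d0_nonneg D x).trans (d0_U0 s₁ s₂ P₁ P₂ D x)

section data

variable {k : ℕ} {δ ρ : ℝ} {O K B : Set (V n)} {j₀ : Fin N} {s₁ s₂ τ : MF n}
  {P₁ P₂ : MC n N} {G₁ G₂ β Y D : Fin n → MC n N} {Γ : Fin n → Fin n → MC n N}
  {χ χ₁ χ₂ g : V n → ℝ}

/-- What is used about the data. -/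
structure Hy (δ : ℝ) (O : Set (V n)) (j₀ : Fin N) (s₁ s₂ τ : MF n) (P₁ P₂ : MC n N)
    (G₂ β D : Fin n → MC n N) (Γ : Fin n → Fin n → MC n N) : Prop where
  nb : ∀ x, Nb δ s₁ s₂ τ P₁ P₂ G₂ β Γ x
  hn : 3 ≤ n
  hδn : 6 * n * δ ≤ 1
  hδN : 2 * N * δ ≤ 1
  hs : 6 * n * N ^ 2 * δ ≤ 1
  ip : ∀ x, ipm s₁ s₁ x ≠ 0
  s1 : SmM s₁
  s2 : SmM s₂
  p1 : SmC P₁
  p2 : SmC P₂
  hΓ : ∀ a b, SmC (Γ a b)
  hD : ∀ a, SmC (D a)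
  y1 : ∀ x, (s₁ x).IsSymm
  y2 : ∀ x, (s₂ x).IsSymm
  hj : ∀ x ∈ O, ∀ i a, (pdm i (D a) x j₀ j₀).re = 0
  cT : Continuous (tn (tfC s₁ (VS s₁ s₂ τ P₁ P₂ G₂ β Γ D)))

theorem Hy_of (hn : 3 ≤ n) (h : RL k δ O K j₀ s₁ s₂ P₁ P₂ G₁ G₂ β Y D) (hI : IG k δ Y Γ)
    (hk : 1 ≤ k) (hτs : SmM τ) (hτ : ∀ x, s₁ x * τ x = 1) (h0 : 0 ≤ δ) (h1 : δ ≤ 1)
    (hδn : 6 * n * δ ≤ 1) (hδN : 2 * N * δ ≤ 1) (hs : 6 * n * N ^ 2 * δ ≤ 1)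
    (hi : ∀ x, fn ((P₂ x)⁻¹) ≤ 2 * N) (his : SmC fun x => (P₂ x)⁻¹) :
    Hy δ O j₀ s₁ s₂ τ P₁ P₂ G₂ β D Γ := by
  have hNb := fun x => Nb_of (G₁ := G₁) h hI hk hτ h0 h1 hδn hi x
  have hip : ∀ x, ipm s₁ s₁ x ≠ 0 := by
    intro x
    have hn0 : (1 : ℝ) ≤ n := by
      have : 1 ≤ n := by omega
      exact_mod_cast this
    have := ipm_ge h0 h1 hδn (hNb x).a1
    have h2 : 0 < ipm s₁ s₁ x := by linarith
    exact h2.ne'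
  have cT : Continuous (tn (tfC s₁ (VS s₁ s₂ τ P₁ P₂ G₂ β Γ D))) :=
    cont_tn fun i j => PJ.H341.sm_tfC h.d₁.ss
      (fun i j => sm_VS h.d₁.ss h.d₂.ss hτs h.d₁.sP h.d₂.sP h.d₂.sG h.sβ hI.sm h.sD his i j) hip i j
  exact ⟨hNb, hn, hδn, hδN, hs, hip, h.d₁.ss, h.d₂.ss, h.d₁.sP, h.d₂.sP, hI.sm, h.sD, h.d₁.sy,
    h.d₂.sy, fun x hx i a => re_pdm h.op (h.sD a) (h.tD a) i hx, cT⟩

theorem Hy.one (h : Hy δ O j₀ s₁ s₂ τ P₁ P₂ G₂ β D Γ) : 1 ≤ n := by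
  have := h.hn
  omega

theorem Hy.cR (h : Hy δ O j₀ s₁ s₂ τ P₁ P₂ G₂ β D Γ) :
    Continuous fun x => tn (tfC s₁ (VS s₁ s₂ τ P₁ P₂ G₂ β Γ D)) x + δ ^ 2 * d1 D x + d0 D x :=
  (h.cT.add (continuous_const.mul (cont_d1 h.hD))).add (cont_d0 h.hD)

theorem Hy.eR (h : Hy δ O j₀ s₁ s₂ τ P₁ P₂ G₂ β D Γ) (hc : CC O B ρ χ χ₁ χ₂)
    (hg : Continuous g) :
    wI χ g ρ (fun x => tn (tfC s₁ (VS s₁ s₂ τ P₁ P₂ G₂ β Γ D)) x + δ ^ 2 * d1 D x + d0 D x) =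
      wI χ g ρ (tn (tfC s₁ (VS s₁ s₂ τ P₁ P₂ G₂ β Γ D))) + δ ^ 2 * wI χ g ρ (d1 D)
        + wI χ g ρ (d0 D) := by
  have cq : Continuous fun x => δ ^ 2 * d1 D x := continuous_const.mul (cont_d1 h.hD)
  rw [wI_add3 hc.s0.continuous (cc_cs hc) hg h.cT cq (cont_d0 h.hD), wI_mul]

theorem est1 (h : Hy δ O j₀ s₁ s₂ τ P₁ P₂ G₂ β D Γ) (hc : CC O B ρ χ χ₁ χ₂)
    (hg : Continuous g) : wI χ g ρ (S4.h0 s₁ s₂) ≤ c5 n N *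
      (wI χ g ρ (tn (tfC s₁ (VS s₁ s₂ τ P₁ P₂ G₂ β Γ D))) + δ ^ 2 * wI χ g ρ (d1 D)
        + wI χ g ρ (d0 D)) := by
  rw [← h.eR hc hg, ← wI_mul]
  exact wI_mono hc.s0.continuous (cc_cs hc) hg (cont_h0 h.s1 h.s2 h.ip)
    (continuous_const.mul h.cR) ρ fun x hx =>
      h0_le h.one (h.nb x) h.hδn h.hδN h.s2 h.p2 h.hΓ h.hD h.y1 h.y2 (h.hj x (cc_O hc hx))

theorem est2 (h : Hy δ O j₀ s₁ s₂ τ P₁ P₂ G₂ β D Γ) (hc : CC O B ρ χ χ₁ χ₂)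
    (hg : Continuous g) : wI χ g ρ (tn (Uk (Db P₂ Γ D))) ≤ c6 n N *
      (wI χ g ρ (tn (tfC s₁ (VS s₁ s₂ τ P₁ P₂ G₂ β Γ D))) + δ ^ 2 * wI χ g ρ (d1 D)
        + wI χ g ρ (d0 D)) := by
  rw [← h.eR hc hg, ← wI_mul]
  exact wI_mono hc.s0.continuous (cc_cs hc) hg (cont_tn (sm_Uk fun b => sm_Db h.p2 h.hΓ h.hD b))
    (continuous_const.mul h.cR) ρ fun x hx =>
      Uk_le h.one (h.nb x) h.hδn h.hδN h.s2 h.p2 h.hΓ h.hD h.y1 h.y2 (h.hj x (cc_O hc hx))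

theorem est3 (h : Hy δ O j₀ s₁ s₂ τ P₁ P₂ G₂ β D Γ) (hc : CC O B ρ χ χ₁ χ₂)
    (hg : Continuous g) : wI χ g ρ (d0 D) ≤ c7 n N * wI χ g ρ (d0 (Db P₂ Γ D)) ∧
      wI χ g ρ (d1 D) ≤ c7 n N * (wI χ g ρ (d1 (Db P₂ Γ D)) + wI χ g ρ (d0 (Db P₂ Γ D))) ∧
      wB B g ρ (d0 (Db P₂ Γ D)) ≤ c7 n N * wB B g ρ (U0 s₁ s₂ P₁ P₂ D) := by
  have hB := fun b => sm_Db h.p2 h.hΓ h.hD b
  have cb0 := cont_d0 hB
  have cb1 := cont_d1 hB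
  have hχc : Continuous χ := hc.s0.continuous
  have hcs := cc_cs hc
  refine ⟨?_, ?_, ?_⟩
  · rw [← wI_mul]
    exact wI_mono hχc hcs hg (cont_d0 h.hD) (continuous_const.mul cb0) ρ fun x _ =>
      (D_le (h.nb x) h.hs h.p2 h.hΓ h.hD).1
  · rw [← wI_add hχc hcs hg cb1 cb0, ← wI_mul]
    exact wI_mono hχc hcs hg (cont_d1 h.hD) (continuous_const.mul (cb1.add cb0)) ρ fun x _ =>
      (D_le (h.nb x) h.hs h.p2 h.hΓ h.hD).2.1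
  · rw [← wB_mul]
    refine wB_mono hc.mB hcs hc.bB hg cb0
      (continuous_const.mul (U0_cont h.s1 h.s2 h.p1 h.p2 h.hD)) ρ fun x _ => ?_
    refine (D_le (h.nb x) h.hs h.p2 h.hΓ h.hD).2.2.trans ?_
    exact mul_le_mul_of_nonneg_left (d0_U0 s₁ s₂ P₁ P₂ D x) (c7_nonneg n N)

theorem est4 (h : Hy δ O j₀ s₁ s₂ τ P₁ P₂ G₂ β D Γ) (hc : CC O B ρ χ χ₁ χ₂)
    (hg : Continuous g) : wI χ g ρ (hh s₁ s₂) ≤ 2 * wI χ g ρ (S4.h0 s₁ s₂) + 64 * n ^ 2 *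
      (wI χ g ρ (fun x => ps j₀ s₁ s₂ P₁ P₂ x ^ 2) + wI χ g ρ (fun x => nq (P₂ x - P₁ x))) := by
  have hχc : Continuous χ := hc.s0.continuous
  have hcs := cc_cs hc
  have c1 : Continuous fun x => ps j₀ s₁ s₂ P₁ P₂ x ^ 2 :=
    (cont_ps h.s1 h.s2 h.ip h.p1 h.p2 j₀).pow 2
  have c2 : Continuous fun x => nq (P₂ x - P₁ x) := cont_nq (sm_sub h.p2 h.p1)
  have c3 := cont_h0 h.s1 h.s2 h.ip
  have c4 : Continuous fun x => 64 * (n : ℝ) ^ 2 *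
      (ps j₀ s₁ s₂ P₁ P₂ x ^ 2 + nq (P₂ x - P₁ x)) := continuous_const.mul (c1.add c2)
  have c5 : Continuous fun x => 2 * S4.h0 s₁ s₂ x := continuous_const.mul c3
  rw [← wI_add hχc hcs hg c1 c2, ← wI_mul, ← wI_mul, ← wI_add hχc hcs hg c5 c4]
  exact wI_mono hχc hcs hg (cont_hh h.s1 h.s2) (c5.add c4) ρ fun x _ =>
    hh_le (h.nb x) h.hδN j₀

end data

/-- **Row X-GE**. -/
theorem rowXGE : RowXKO → RowXTR → RowXME → RowXGE := by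
  intro hKO hTR hME n N hn hN M c₀ Cs hM hc hCs
  obtain ⟨Ck, ρk, hCk, hρk, KC⟩ := korn_cut hKO hn N hM hc
  obtain ⟨kt, Ct, δt, ρt, hCt, hδt, hρt, TR⟩ := hTR n N hn hN M c₀ Cs hM hc hCs
  obtain ⟨km, Cm, δm, ρm, hCm, hδm, hρm, ME⟩ := hME n N hn hN M c₀ Cs hM hc hCs
  obtain ⟨ε₀, hε, IV⟩ := inv_bd n N
  have hn0 : (0 : ℝ) ≤ n := Nat.cast_nonneg n
  have hN0 : (0 : ℝ) ≤ N := Nat.cast_nonneg N
  have hc7 := c7_nonneg n N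
  have hc6 : 0 ≤ c6 n N := by unfold c6; positivity
  have hc5 : 0 ≤ c5 n N := by unfold c5; positivity
  set C1 : ℝ := 2 * c7 n N * Ck * (c6 n N + c7 n N) with hC1
  have hC10 : 0 ≤ C1 := by positivity
  set q : ℝ := 64 * n ^ 2 with hq
  have hq0 : 0 ≤ q := by positivity
  set E : ℝ := q * Ct + (q + 1) * Cm with hE
  have hE0 : 0 ≤ E := by positivity
  -- the smallness
  set cc : ℝ := 1 + 6 * n + 2 * N + 6 * n * N ^ 2 + 2 * C1 with hcc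
  have hcc0 : 0 < cc := by positivity
  set δ : ℝ := min (min δt δm) (min ε₀ (1 / cc)) with hδ
  have hδ0 : 0 < δ := lt_min (lt_min hδt hδm) (lt_min hε (by positivity))
  have hδ1 : δ ≤ δt := (min_le_left _ _).trans (min_le_left _ _)
  have hδ2 : δ ≤ δm := (min_le_left _ _).trans (min_le_right _ _)
  have hδ3 : δ ≤ ε₀ := (min_le_right _ _).trans (min_le_left _ _)
  have hδc : cc * δ ≤ 1 := by
    have : δ ≤ 1 / cc := (min_le_right _ _).trans (min_le_right _ _)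
    rw [le_div_iff₀ hcc0] at this
    linarith
  have q1 : 0 ≤ 6 * (n : ℝ) * δ := by positivity
  have q2 : 0 ≤ 2 * (N : ℝ) * δ := by positivity
  have q3 : 0 ≤ 6 * (n : ℝ) * N ^ 2 * δ := by positivity
  have q4 : 0 ≤ 2 * C1 * δ := by positivity
  have q5 : δ + 6 * (n : ℝ) * δ + 2 * (N : ℝ) * δ + 6 * (n : ℝ) * N ^ 2 * δ + 2 * C1 * δ ≤ 1 := by
    calc _ = cc * δ := by rw [hcc]; ring
      _ ≤ 1 := hδc
  have d1 : δ ≤ 1 := by linarith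
  have d2 : 6 * n * δ ≤ 1 := by linarith
  have d3 : 2 * N * δ ≤ 1 := by linarith
  have d4 : 6 * n * N ^ 2 * δ ≤ 1 := by linarith
  have d5 : C1 * δ ^ 2 ≤ 1 / 2 := by
    have e1 : C1 * δ ≤ 1 / 2 := by linarith
    calc C1 * δ ^ 2 = C1 * δ * δ := by ring
      _ ≤ 1 / 2 * 1 := mul_le_mul e1 d1 hδ0.le (by norm_num)
      _ = 1 / 2 := by norm_num
  set C2 : ℝ := c5 n N * (1 + 2 * C1) with hC2
  have hC20 : 0 ≤ C2 := by positivity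
  refine ⟨max 1 (max kt km), 1 + (4 * C2 + 2 * (q * Ct) * (C2 + 2 * C1) + 4 * C1 + 2 * E), δ,
    ρk + ρt + ρm + 2 * C1 + 2 * E, by positivity, hδ0, by linarith, ?_⟩
  intro O K j₀ s₁ s₂ P₁ P₂ G₁ G₂ β Y D h Γ hI τ hτs hτ g hg ρ hρ sl1 sl2 B χ χ₁ χ₂ hχ
  have r1 : ρk ≤ ρ := by linarith
  have r2 : ρt ≤ ρ := by linarith
  have r3 : ρm ≤ ρ := by linarith
  have r4 : 2 * C1 ≤ ρ := by linarith
  have r5 : 2 * E ≤ ρ := by linarith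
  have r6 : 1 ≤ ρ := by linarith
  have r7 : 2 * C1 ≤ ρ ^ 2 := by
    have : ρ ≤ ρ ^ 2 := le_self_pow₀ r6 (by norm_num)
    linarith
  have k1 : 1 ≤ max 1 (max kt km) := le_max_left _ _
  have k2 : kt ≤ max 1 (max kt km) := (le_max_left _ _).trans (le_max_right _ _)
  have k3 : km ≤ max 1 (max kt km) := (le_max_right _ _).trans (le_max_right _ _)
  obtain ⟨his, hi⟩ := IV P₂ h.d₂.sP δ hδ0.le hδ3
    (fun a b => cl_mono (h.d₂.cP a b) (Nat.zero_le _) le_rfl)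
  have hB := fun b => sm_Db h.d₂.sP hI.sm h.sD b
  have ko := KC O h.op g hg.gs hg.g1 hg.g2 hg.gr ρ r1 B χ χ₁ χ₂ hχ (Db P₂ Γ D) hB
  have hy : Hy δ O j₀ s₁ s₂ τ P₁ P₂ G₂ β D Γ :=
    Hy_of hn h hI k1 hτs hτ hδ0.le d1 d2 d3 d4 hi his
  have hgc : Continuous g := hg.gs.continuous
  have e1 := est1 hy hχ hgc
  have e2 := est2 hy hχ hgc
  obtain ⟨e3, e4, e5⟩ := est3 hy hχ hgc
  have e6 := est4 hy hχ hgc
  have tr := TR O K j₀ s₁ s₂ P₁ P₂ G₁ G₂ β Y D (RL_mono h k2 hδ1) Γ (IG_mono hI k2 hδ1) g hg ρ r2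
    sl1 B χ χ₁ χ₂ hχ
  have me := ME O K j₀ s₁ s₂ P₁ P₂ G₁ G₂ β Y D (RL_mono h k3 hδ2) Γ (IG_mono hI k3 hδ2) g hg ρ r3
    sl2 B χ χ₁ χ₂ hχ
  have hcs := cc_cs hχ
  have hχc : Continuous χ := hχ.s0.continuous
  have cd0 := cont_d0 h.sD
  have cd1 := cont_d1 h.sD
  have ch0 := cont_h0 h.d₁.ss h.d₂.ss hy.ip
  have chh := cont_hh (s₁ := s₁) (s₂ := s₂) h.d₁.ss h.d₂.ss
  have cm : Continuous fun x => nq (P₂ x - P₁ x) := cont_nq (sm_sub h.d₂.sP h.d₁.sP)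
  have cq : Continuous fun x => ρ ^ 2 * S4.d0 D x := continuous_const.mul cd0
  rw [wI_add hχc hcs hgc ch0 cd1, wI_add3 hχc hcs hgc chh cm cd0] at tr
  rw [wI_add3 hχc hcs hgc chh cd0 cd1] at me
  rw [wI_add4 hχc hcs hgc chh cm cd1 cq, wI_mul]
  have t0 : 0 ≤ wI χ g ρ (tn (tfC s₁ (VS s₁ s₂ τ P₁ P₂ G₂ β Γ D))) :=
    wI_nonneg (fun x => tn_nonneg _ x) ρ
  have x0 : 0 ≤ wI χ g ρ (S4.d0 D) := wI_nonneg (fun x => d0_nonneg _ x) ρ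
  have x1 : 0 ≤ wI χ g ρ (S4.d1 D) := wI_nonneg (fun x => d1_nonneg _ x) ρ
  have y0 : 0 ≤ wI χ g ρ (hh s₁ s₂) := wI_nonneg (hh_nonneg s₁ s₂) ρ
  have y1 : 0 ≤ wI χ g ρ (fun x => nq (P₂ x - P₁ x)) := wI_nonneg (fun x => nq_nonneg _) ρ
  have w0 : 0 ≤ wB B g ρ (U0 s₁ s₂ P₁ P₂ D) := wB_nonneg (U0_nonneg s₁ s₂ P₁ P₂ D) ρ
  have b0 : 0 ≤ wI χ g ρ (S4.d0 (Db P₂ Γ D)) := wI_nonneg (fun x => d0_nonneg _ x) ρ
  have b1 : 0 ≤ wI χ g ρ (S4.d1 (Db P₂ Γ D)) := wI_nonneg (fun x => d1_nonneg _ x) ρ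
  generalize wI χ g ρ (tn (tfC s₁ (VS s₁ s₂ τ P₁ P₂ G₂ β Γ D))) = T at *
  generalize wI χ g ρ (S4.d0 D) = X0 at *
  generalize wI χ g ρ (S4.d1 D) = X1 at *
  generalize wI χ g ρ (S4.h0 s₁ s₂) = H0 at *
  generalize wI χ g ρ (hh s₁ s₂) = HH at *
  generalize wI χ g ρ (fun x => nq (P₂ x - P₁ x)) = Mm at *
  generalize wI χ g ρ (fun x => ps j₀ s₁ s₂ P₁ P₂ x ^ 2) = Ps at *
  generalize wB B g ρ (U0 s₁ s₂ P₁ P₂ D) = W at *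
  have z0 := ar0 hc6 hc7 hCk.le r6 (by positivity) w0 b0 b1 ko e2 e3 e4 e5
  have z1 := ar1 hC10 x1 x0 d5 r7 z0
  have z2 : H0 ≤ C2 * (T + ρ ^ 2 * W) := by
    refine e1.trans ?_
    rw [hC2, mul_assoc]
    refine mul_le_mul_of_nonneg_left ?_ hc5
    have b1 : δ ^ 2 * X1 ≤ 1 * X1 := by
      refine mul_le_mul_of_nonneg_right ?_ x1
      exact pow_le_one₀ hδ0.le d1
    have b2 : X0 ≤ ρ ^ 2 * X0 := le_mul_of_one_le_left x0 (one_le_pow₀ r6)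
    have b3 : 0 ≤ ρ ^ 2 * W := by positivity
    linarith
  have fin := ar2 hC10 hC20 hq0 hCt.le hCm.le r6 t0 w0 x0 x1 y0 y1 r5 z1 z2 tr me e6
  refine fin.trans ?_
  have b4 : 0 ≤ ρ * T := by positivity
  have b5 : 0 ≤ ρ ^ 6 * W := by positivity
  linarith

end Vale.Agent.P088.S4.H870

end
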